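import Vale.Agent.P083.Loc

/-!
# P083: limits of approximations
-/

open Filter Topology
open scoped InnerProductSpace

namespace Vale.Agent.P083

noncomputable section

variable {O : Type} [CStarAlgebra O]
variable {K : Type} [NormedAddCommGroup K] [InnerProductSpace ℂ K] [CompleteSpace K]
variable {H : Type} [NormedAddCommGroup H] [InnerProductSpace ℂ H] [CompleteSpace H]
variable {B : Type} [CStarAlgebra B] {D : Type*}

/-- The maps `v d` intertwine `x` in the limit. -/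
def Conv (ρ : O →⋆ₐ[ℂ] (K →L[ℂ] K)) (l : Filter D) (Φ : D → (B →⋆ₐ[ℂ] O))
    (π : B →⋆ₐ[ℂ] (H →L[ℂ] H)) (v : D → (H →ₗ[ℂ] K)) (x : B) : Prop :=
  ∀ h : H, Tendsto (fun d => ρ (Φ d x) (v d h) - v d (π x h)) l (𝓝 0)

variable {ρ : O →⋆ₐ[ℂ] (K →L[ℂ] K)} {l : Filter D} {Φ : D → (B →⋆ₐ[ℂ] O)}
  {π : B →⋆ₐ[ℂ] (H →L[ℂ] H)} {v : D → (H →ₗ[ℂ] K)}

theorem Conv.add {x y : B} (hx : Conv ρ l Φ π v x) (hy : Conv ρ l Φ π v y) :
    Conv ρ l Φ π v (x + y) := by
  intro h
  have := (hx h).add (hy h)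
  rw [add_zero] at this
  refine this.congr fun d => ?_
  rw [map_add, map_add, map_add]
  show _ = (ρ (Φ d x) (v d h) + ρ (Φ d y) (v d h)) - v d (π x h + π y h)
  rw [map_add]
  abel

theorem Conv.mul {x y : B} (hv : ∀ d h, ‖v d h‖ ≤ ‖h‖) (hx : Conv ρ l Φ π v x)
    (hy : Conv ρ l Φ π v y) : Conv ρ l Φ π v (x * y) := by
  intro h
  have h1 : Tendsto (fun d => ρ (Φ d x) (ρ (Φ d y) (v d h) - v d (π y h))) l (𝓝 0) := by
    refine squeeze_zero_norm (a := fun d => ‖x‖ * ‖ρ (Φ d y) (v d h) - v d (π y h)‖)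
      (fun d => ?_) ?_
    · refine (rep_norm_le ρ _ _).trans ?_
      exact mul_le_mul_of_nonneg_right (NonUnitalStarAlgHom.norm_apply_le (Φ d) x) (norm_nonneg _)
    · have := (hy h).norm.const_mul ‖x‖
      simpa using this
  have h2 := h1.add (hx (π y h))
  rw [add_zero] at h2
  refine h2.congr fun d => ?_
  rw [map_mul, rep_mul, rep_mul, map_sub]
  abel

theorem Conv.algebraMap (c : ℂ) : Conv ρ l Φ π v (algebraMap ℂ B c) := by
  intro h
  refine tendsto_const_nhds.congr fun d => ?_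
  rw [AlgHomClass.commutes, AlgHomClass.commutes, AlgHomClass.commutes]
  show (0 : K) = c • v d h - v d (c • h)
  rw [map_smul, sub_self]

theorem Conv.of_adjoin (hv : ∀ d h, ‖v d h‖ ≤ ‖h‖) {S : Set B}
    (hS : ∀ x ∈ S, Conv ρ l Φ π v x) (hS' : ∀ x ∈ S, Conv ρ l Φ π v (star x)) {x : B}
    (hx : x ∈ StarAlgebra.adjoin ℂ S) : Conv ρ l Φ π v x := by
  have hx' : x ∈ Algebra.adjoin ℂ (S ∪ star S) := by
    have := StarAlgebra.adjoin_toSubalgebra ℂ S
    rw [← this]
    exact hx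
  refine Algebra.adjoin_induction (p := fun x _ => Conv ρ l Φ π v x) ?_ ?_ ?_ ?_ hx'
  · intro y hy
    rcases hy with hy | hy
    · exact hS y hy
    · have := hS' (star y) hy
      rwa [star_star] at this
  · exact fun c => Conv.algebraMap c
  · exact fun x y _ _ h1 h2 => h1.add h2
  · exact fun x y _ _ h1 h2 => h1.mul hv h2

theorem Conv.all (hv : ∀ d h, ‖v d h‖ ≤ ‖h‖) {S : Set B}
    (hS : ∀ x ∈ S, Conv ρ l Φ π v x) (hS' : ∀ x ∈ S, Conv ρ l Φ π v (star x))
    (hgen : (StarAlgebra.adjoin ℂ S).topologicalClosure = ⊤) (x : B) : Conv ρ l Φ π v x := by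
  intro h
  rw [Metric.tendsto_nhds]
  intro ε hε
  have hx : x ∈ closure ((StarAlgebra.adjoin ℂ S : StarSubalgebra ℂ B) : Set B) := by
    have : x ∈ (StarAlgebra.adjoin ℂ S).topologicalClosure := by
      rw [hgen]
      exact StarSubalgebra.mem_top
    rwa [← SetLike.mem_coe, StarSubalgebra.topologicalClosure_coe] at this
  have hpos : 0 < ε / (4 * (‖h‖ + 1)) := by positivity
  obtain ⟨y, hy, hxy⟩ := Metric.mem_closure_iff.1 hx _ hpos
  rw [dist_eq_norm] at hxy
  have h1 := Conv.of_adjoin hv hS hS' hy h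
  rw [Metric.tendsto_nhds] at h1
  refine (h1 (ε / 2) (by positivity)).mono fun d hd => ?_
  rw [dist_zero_right] at hd ⊢
  have e1 : ρ (Φ d x) (v d h) - v d (π x h) = (ρ (Φ d y) (v d h) - v d (π y h)) +
      (ρ (Φ d (x - y)) (v d h) - v d (π (x - y) h)) := by
    have e2 : ρ (Φ d (x - y)) (v d h) = ρ (Φ d x) (v d h) - ρ (Φ d y) (v d h) := by
      rw [map_sub, map_sub]
      rfl
    have e3 : π (x - y) h = π x h - π y h := by
      rw [map_sub]
      rfl
    rw [e2, e3, map_sub]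
    abel
  have e4 : ‖ρ (Φ d (x - y)) (v d h)‖ ≤ ‖x - y‖ * ‖h‖ := by
    refine (rep_norm_le ρ _ _).trans ?_
    exact mul_le_mul (NonUnitalStarAlgHom.norm_apply_le (Φ d) _) (hv d h) (norm_nonneg _)
      (norm_nonneg _)
  have e5 : ‖v d (π (x - y) h)‖ ≤ ‖x - y‖ * ‖h‖ := (hv d _).trans (rep_norm_le π _ _)
  have e6 : ‖x - y‖ * ‖h‖ ≤ ε / 4 := by
    have h2 : ‖x - y‖ * ‖h‖ ≤ ε / (4 * (‖h‖ + 1)) * (‖h‖ + 1) :=
      mul_le_mul hxy.le (by linarith) (norm_nonneg _) hpos.le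
    have h3 : ε / (4 * (‖h‖ + 1)) * (‖h‖ + 1) = ε / 4 := by
      have : ‖h‖ + 1 ≠ 0 := by positivity
      field_simp
    linarith
  rw [e1]
  calc _ ≤ ‖ρ (Φ d y) (v d h) - v d (π y h)‖ + ‖ρ (Φ d (x - y)) (v d h) - v d (π (x - y) h)‖ :=
        norm_add_le _ _
    _ ≤ ‖ρ (Φ d y) (v d h) - v d (π y h)‖ +
        (‖ρ (Φ d (x - y)) (v d h)‖ + ‖v d (π (x - y) h)‖) := by
        gcongr
        exact norm_sub_le _ _
    _ < ε := by linarith

/-- Approximation of a representation of the Cuntz algebra on finitely many elements and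
vectors. -/
theorem exists_approx {s₀ s₁ : O} (hO : IsCuntzAlgebra s₀ s₁) (ρ : O →⋆ₐ[ℂ] (K →L[ℂ] K)) {e : K}
    (he : ‖e‖ = 1) (hfix : ρ s₀ e = e) (τ : O →⋆ₐ[ℂ] (H →L[ℂ] H)) (E : Finset H) (Y : Finset O)
    {ε : ℝ} (hε : 0 < ε) :
    ∃ (φ : O →⋆ₐ[ℂ] O) (k : ℕ) (V : H →ₗ[ℂ] K), (∀ h, V h ∈ Fs ρ ![s₀, s₁] e k) ∧
      (∀ h ∈ Submodule.span ℂ (E : Set H), ‖V h‖ = ‖h‖) ∧
      ∀ y ∈ Y, ∀ h ∈ E, ‖ρ (φ y) (V h) - V (τ y h)‖ ≤ ε := by
  classical
  have hfd : ∀ E : Finset H, FiniteDimensional ℂ (Submodule.span ℂ (E : Set H)) :=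
    fun E => FiniteDimensional.span_of_finite ℂ E.finite_toSet
  have hstep := fun E : Finset H => by
    haveI := hfd E
    exact exists_step hO ρ he hfix τ (Submodule.span ℂ (E : Set H))
  choose φ k V h1 h2 h3 h4 h5 using hstep
  have hmem : ∀ (E : Finset H) (h : H), {h} ≤ E → h ∈ Submodule.span ℂ (E : Set H) := by
    intro E h hE
    exact Submodule.subset_span (by simpa using hE)
  have hconv : ∀ x, Conv ρ (atTop : Filter (Finset H)) φ τ V x := by
    refine Conv.all h3 (S := {s₀, s₁}) ?_ ?_ hO.generates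
    · have key : ∀ b, Conv ρ (atTop : Filter (Finset H)) φ τ V (![s₀, s₁] b) := by
        intro b h
        refine tendsto_const_nhds.congr' ?_
        filter_upwards [eventually_ge_atTop ({h} : Finset H),
          eventually_ge_atTop ({τ (![s₀, s₁] b) h} : Finset H)] with E hE hE'
        rw [h4 E b h (hmem E h hE) (hmem E _ hE'), sub_self]
      rintro x (rfl | rfl)
      · exact key 0
      · exact key 1
    · have key : ∀ b, Conv ρ (atTop : Filter (Finset H)) φ τ V (star (![s₀, s₁] b)) := by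
        intro b h
        refine tendsto_const_nhds.congr' ?_
        filter_upwards [eventually_ge_atTop ({h} : Finset H),
          eventually_ge_atTop ({τ (star (![s₀, s₁] 0)) h} : Finset H),
          eventually_ge_atTop ({τ (star (![s₀, s₁] 1)) h} : Finset H)] with E hE hE' hE''
        rw [h5 E h (hmem E h hE) (fun c => ?_) b, sub_self]
        obtain rfl | rfl : c = 0 ∨ c = 1 := by fin_cases c <;> simp
        · exact hmem E _ hE'
        · exact hmem E _ hE''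
      rintro x (rfl | rfl)
      · exact key 0
      · exact key 1
  have hev : ∀ᶠ E' in (atTop : Filter (Finset H)), E ≤ E' ∧
      ∀ y ∈ Y, ∀ h ∈ E, ‖ρ (φ E' y) (V E' h) - V E' (τ y h)‖ ≤ ε := by
    refine (eventually_ge_atTop E).and ?_
    rw [Filter.eventually_all_finset]
    intro y hy
    rw [Filter.eventually_all_finset]
    intro h hh
    have := (Metric.tendsto_nhds.1 (hconv y h)) ε hε
    refine this.mono fun E' hE' => ?_
    rw [dist_zero_right] at hE'
    exact hE'.le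
  obtain ⟨E', hE', h6⟩ := hev.exists
  refine ⟨φ E', k E', V E', h1 E', fun h hh => h2 E' h ?_, h6⟩
  exact Submodule.span_mono (by exact_mod_cast hE') hh

end

end Vale.Agent.P083
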