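import Mathlib

/-!
# P083: definitions used in the statement

Cuntz pairs, the Cuntz algebra `O₂`, full (unital) free products, and the norm ultrapower.
-/

open Filter Topology
open scoped BoundedContinuousFunction

namespace Vale.Agent.P083

universe u v w

/-- `s₀`, `s₁` are isometries with `s₀ s₀* + s₁ s₁* = 1`. -/
structure IsCuntzPair {B : Type u} [CStarAlgebra B] (s₀ s₁ : B) : Prop where
  iso₀ : star s₀ * s₀ = 1
  iso₁ : star s₁ * s₁ = 1
  sum : s₀ * star s₀ + s₁ * star s₁ = 1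

/-- `O`, with the generators `s₀`, `s₁`, is the Cuntz algebra `O₂`: the universal unital
C*-algebra generated by two isometries with `s₀ s₀* + s₁ s₁* = 1`. -/
structure IsCuntzAlgebra {O : Type u} [CStarAlgebra O] (s₀ s₁ : O) : Prop where
  pair : IsCuntzPair s₀ s₁
  generates : (StarAlgebra.adjoin ℂ {s₀, s₁}).topologicalClosure = ⊤
  universal : ∀ (B : Type u) [CStarAlgebra B] (t₀ t₁ : B), IsCuntzPair t₀ t₁ →
    ∃ φ : O →⋆ₐ[ℂ] B, φ s₀ = t₀ ∧ φ s₁ = t₁

/-- `P`, with the unital `*`-homomorphisms `ι i`, is the full (unital) free product of the unital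
C*-algebras `A i`. -/
structure IsFreeProduct {I : Type v} {A : I → Type u} [∀ i, CStarAlgebra (A i)] {P : Type u}
    [CStarAlgebra P] (ι : ∀ i, A i →⋆ₐ[ℂ] P) : Prop where
  generates : (StarAlgebra.adjoin ℂ (⋃ i, Set.range (ι i))).topologicalClosure = ⊤
  universal : ∀ (B : Type u) [CStarAlgebra B] (f : ∀ i, A i →⋆ₐ[ℂ] B),
    ∃ φ : P →⋆ₐ[ℂ] B, ∀ i a, φ (ι i a) = f i a

/-- The `*`-homomorphism `q` on the bounded sequences in `B` exhibits `U` as the norm ultrapower
`B^ω = ℓ^∞(ℕ, B) / {b : lim_ω ‖b n‖ = 0}`: it is surjective, with kernel the sequences which are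
null along `ω`. -/
structure IsUltrapower (ω : Ultrafilter ℕ) {B : Type u} {U : Type w} [CStarAlgebra B]
    [CStarAlgebra U] (q : (ℕ →ᵇ B) →⋆ₐ[ℂ] U) : Prop where
  surjective : Function.Surjective q
  ker : ∀ b : ℕ →ᵇ B, q b = 0 ↔ Tendsto (fun n => ‖b n‖) (ω : Filter ℕ) (𝓝 0)

end Vale.Agent.P083
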