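import Vale.Agent.P083.Trans

/-!
# P083: states and the GNS representation
-/

open Filter Topology
open scoped InnerProductSpace ComplexOrder

namespace Vale.Agent.P083

noncomputable section

theorem norm_one_le' (A : Type*) [CStarAlgebra A] : ‖(1 : A)‖ ≤ 1 := by
  have h : ‖(1 : A)‖ * ‖(1 : A)‖ = ‖(1 : A)‖ := by
    rw [← CStarRing.norm_star_mul_self, star_one, one_mul]
  nlinarith [norm_nonneg (1 : A)]

theorem nonneg_of_norm_one {A : Type*} [CStarAlgebra A] (g : A →L[ℂ] ℂ) (hg : ‖g‖ ≤ 1)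
    (h1 : g 1 = 1) (x : A) : 0 ≤ g (star x * x) := by
  have hle : ∀ y, ‖g y‖ ≤ ‖y‖ := fun y =>
    (g.le_opNorm y).trans ((mul_le_mul_of_nonneg_right hg (norm_nonneg _)).trans (one_mul _).le)
  have him : ∀ b : A, IsSelfAdjoint b → (g b).im = 0 := by
    intro b hb
    have key : ∀ t : ℝ, ((g b).im + t) ^ 2 ≤ ‖b‖ ^ 2 + t ^ 2 := by
      intro t
      have e1 : g (b + ((t : ℂ) * Complex.I) • (1 : A)) = g b + t * Complex.I := by
        rw [map_add, map_smul, h1, smul_eq_mul, mul_one]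
      have e3 : star (b + ((t : ℂ) * Complex.I) • (1 : A)) * (b + ((t : ℂ) * Complex.I) • (1 : A)) =
          star b * b + ((t ^ 2 : ℝ) : ℂ) • (1 : A) := by
        have e4 : star ((t : ℂ) * Complex.I) = -((t : ℂ) * Complex.I) := by
          simp
        rw [star_add, star_smul, star_one, e4, hb.star_eq]
        simp only [add_mul, mul_add, smul_mul_assoc, mul_smul_comm, one_mul, mul_one, neg_smul,
          neg_mul, smul_add, smul_neg, smul_smul]
        have e5 : (t : ℂ) * Complex.I * ((t : ℂ) * Complex.I) = -((t ^ 2 : ℝ) : ℂ) := by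
          push_cast
          linear_combination (t : ℂ) ^ 2 * Complex.I_sq
        rw [e5, neg_smul]
        abel
      have e2 : ‖b + ((t : ℂ) * Complex.I) • (1 : A)‖ ^ 2 ≤ ‖b‖ ^ 2 + t ^ 2 := by
        rw [pow_two ‖b + ((t : ℂ) * Complex.I) • (1 : A)‖, ← CStarRing.norm_star_mul_self, e3]
        refine (norm_add_le _ _).trans (add_le_add ?_ ?_)
        · rw [CStarRing.norm_star_mul_self, pow_two]
        · rw [norm_smul, Complex.norm_real, Real.norm_eq_abs, abs_of_nonneg (sq_nonneg t)]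
          calc t ^ 2 * ‖(1 : A)‖ ≤ t ^ 2 * 1 :=
                mul_le_mul_of_nonneg_left (norm_one_le' A) (sq_nonneg t)
            _ = t ^ 2 := mul_one _
      have e6 : |(g b).im + t| ≤ ‖g (b + ((t : ℂ) * Complex.I) • (1 : A))‖ := by
        rw [e1]
        have := Complex.abs_im_le_norm (g b + t * Complex.I)
        simpa using this
      have e7 := e6.trans (hle _)
      calc ((g b).im + t) ^ 2 = |(g b).im + t| ^ 2 := (sq_abs _).symm
        _ ≤ ‖b + ((t : ℂ) * Complex.I) • (1 : A)‖ ^ 2 := pow_le_pow_left₀ (abs_nonneg _) e7 2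
        _ ≤ _ := e2
    by_contra hne
    have h2 := key ((‖b‖ ^ 2 + 1) / (2 * (g b).im))
    have h3 : 2 * (g b).im * ((‖b‖ ^ 2 + 1) / (2 * (g b).im)) = ‖b‖ ^ 2 + 1 := by
      field_simp
    nlinarith [sq_nonneg (g b).im]
  have hb := IsSelfAdjoint.star_mul_self x
  rw [Complex.nonneg_iff]
  refine ⟨?_, (him _ hb).symm⟩
  have h2 : ‖((‖star x * x‖ : ℝ) : ℂ) • (1 : A) - star x * x‖ ≤ ‖star x * x‖ := by
    have e1 : ((‖star x * x‖ : ℝ) : ℂ) • (1 : A) - star x * x =
        cfc (fun t : ℝ => ‖star x * x‖ - t) (star x * x) := by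
      rw [cfc_sub (fun _ : ℝ => ‖star x * x‖) (fun t : ℝ => t) (star x * x), cfc_id' ℝ (star x * x),
        cfc_const (‖star x * x‖) (star x * x), Algebra.algebraMap_eq_smul_one]
      rfl
    rw [e1]
    refine norm_cfc_le (norm_nonneg _) fun t ht => ?_
    have h3 : 0 ≤ t := spectrum_star_mul_self_nonneg (b := x) t ht
    have hnt : Nontrivial A := by
      rcases subsingleton_or_nontrivial A with hs | hs
      · rw [spectrum.of_subsingleton] at ht
        exact ht.elim
      · exact hs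
    have h4 : ‖t‖ ≤ ‖star x * x‖ := spectrum.norm_le_norm_of_mem ht
    rw [Real.norm_eq_abs, abs_of_nonneg h3] at h4
    rw [Real.norm_eq_abs, abs_le]
    constructor <;> linarith
  have h3 := (Complex.re_le_norm _).trans ((hle _).trans h2)
  rw [map_sub, map_smul, h1, smul_eq_mul, mul_one, Complex.sub_re, Complex.ofReal_re] at h3
  linarith


/-- a state which attains the norm of a positive element of norm one -/
theorem exists_norming_state {A : Type*} [CStarAlgebra A] (y : A) (hy : ‖star y * y‖ = 1) :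
    ∃ g : A →ₗ[ℂ] ℂ, g 1 = 1 ∧ (∀ x, 0 ≤ g (star x * x)) ∧ g (star y * y) = 1 := by
  let _ := CStarAlgebra.spectralOrder A
  have _ := CStarAlgebra.spectralOrderedRing A
  have hA : Nontrivial A := by
    by_contra hA
    rw [not_nontrivial_iff_subsingleton] at hA
    rw [Subsingleton.elim (star y * y) 0, norm_zero] at hy
    exact zero_ne_one hy
  set w := star y * y with hw
  have hsa : IsSelfAdjoint w := IsSelfAdjoint.star_mul_self y
  have hw0 : 0 ≤ w := star_mul_self_nonneg y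
  obtain ⟨g, hg1, hg2⟩ := exists_dual_vector'' ℂ (1 + w)
  have hle : ∀ y, ‖g y‖ ≤ ‖y‖ := fun y =>
    (g.le_opNorm y).trans ((mul_le_mul_of_nonneg_right hg1 (norm_nonneg _)).trans (one_mul _).le)
  have h2 : 2 ≤ ‖1 + w‖ := by
    have h1 : (1 : ℝ) ∈ spectrum ℝ w := by
      have := CStarAlgebra.norm_mem_spectrum_of_nonneg hw0
      rwa [hy] at this
    have h3 := norm_apply_le_norm_cfc (fun t : ℝ => 1 + t) w h1 (by fun_prop) hsa
    have h4 : cfc (fun t : ℝ => 1 + t) w = 1 + w := by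
      rw [cfc_const_add (1 : ℝ) (fun t : ℝ => t) w, cfc_id' ℝ w, map_one]
    rw [h4] at h3
    have h5 : ‖(1 : ℝ) + 1‖ = 2 := by norm_num
    rwa [h5] at h3
  have h5 : (g 1).re + (g w).re = ‖1 + w‖ := by
    rw [← Complex.add_re, ← map_add, hg2]
    simp
  have h6 : ‖g 1‖ ≤ 1 := (hle 1).trans (norm_one_le' A)
  have h7 : ‖g w‖ ≤ 1 := (hle w).trans hy.le
  have h8 := Complex.re_le_norm (g 1)
  have h9 := Complex.re_le_norm (g w)
  have hone : ∀ z : ℂ, ‖z‖ ≤ 1 → 1 ≤ z.re → z = 1 := by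
    intro z hz1 hz2
    have hz3 : z.re ^ 2 + z.im ^ 2 ≤ 1 := by
      have := Complex.sq_norm z
      rw [Complex.normSq_apply] at this
      nlinarith [norm_nonneg z]
    have hz4 := Complex.re_le_norm z
    apply Complex.ext
    · simp only [Complex.one_re]
      linarith
    · simp only [Complex.one_im]
      have : z.im ^ 2 ≤ 0 := by nlinarith
      exact pow_eq_zero_iff (two_ne_zero) |>.1 (le_antisymm this (sq_nonneg _))
  have h10 : g 1 = 1 := hone _ h6 (by linarith)
  have h11 : g w = 1 := hone _ h7 (by linarith)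
  exact ⟨g.toLinearMap, h10, fun x => nonneg_of_norm_one g hg1 h10 x, h11⟩

/-- the GNS representation -/
theorem exists_gns {B : Type} [CStarAlgebra B] (f : B →ₗ[ℂ] ℂ) (hf : ∀ x, 0 ≤ f (star x * x)) :
    ∃ (H : Type) (_ : NormedAddCommGroup H) (_ : InnerProductSpace ℂ H) (_ : CompleteSpace H)
      (τ : B →⋆ₐ[ℂ] (H →L[ℂ] H)) (ξ : H), ∀ a b, ⟪τ a ξ, τ b ξ⟫_ℂ = f (star a * b) := by
  let _ := CStarAlgebra.spectralOrder B
  have _ := CStarAlgebra.spectralOrderedRing B
  have hpos : ∀ x : B, 0 ≤ x → 0 ≤ f x := by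
    intro x hx
    obtain ⟨y, rfl⟩ := CStarAlgebra.nonneg_iff_eq_star_mul_self.1 hx
    exact hf y
  let g : B →ₚ[ℂ] ℂ := PositiveLinearMap.mk₀ f hpos
  have hg : ∀ x, g x = f x := fun x => rfl
  refine ⟨g.GNS, inferInstance, inferInstance, inferInstance, g.gnsStarAlgHom,
    ((g.toPreGNS 1 : g.PreGNS) : g.GNS), fun a b => ?_⟩
  have h1 : ∀ a : B, g.gnsStarAlgHom a ((g.toPreGNS 1 : g.PreGNS) : g.GNS) =
      ((g.toPreGNS a : g.PreGNS) : g.GNS) := by
    intro a
    have h2 := g.gnsNonUnitalStarAlgHom_apply_coe (a := a) (b := g.toPreGNS 1)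
    refine h2.trans ?_
    simp
  rw [h1, h1, UniformSpace.Completion.inner_coe, PositiveLinearMap.preGNS_inner_def]
  simp [hg]

/-- a representation and a vector which attain the norm of `x` -/
theorem exists_norming_rep {P : Type} [CStarAlgebra P] (x : P) (hx : x ≠ 0) :
    ∃ (H : Type) (_ : NormedAddCommGroup H) (_ : InnerProductSpace ℂ H) (_ : CompleteSpace H)
      (π : P →⋆ₐ[ℂ] (H →L[ℂ] H)) (ξ : H), ‖ξ‖ ≤ 1 ∧ ‖π x ξ‖ = ‖x‖ := by
  have hx' : 0 < ‖x‖ := norm_pos_iff.2 hx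
  set y : P := ((‖x‖⁻¹ : ℝ) : ℂ) • x with hy
  have hy1 : ‖star y * y‖ = 1 := by
    rw [CStarRing.norm_star_mul_self, hy, norm_smul, Complex.norm_real, norm_inv, norm_norm,
      inv_mul_cancel₀ hx'.ne', one_mul]
  obtain ⟨g, hg1, hg2, hg3⟩ := exists_norming_state y hy1
  obtain ⟨H, i1, i2, i3, τ, ξ, h⟩ := exists_gns g hg2
  refine ⟨H, i1, i2, i3, τ, ξ, ?_, ?_⟩
  · have h1 := h 1 1
    rw [star_one, one_mul, hg1, rep_one, inner_self_eq_norm_sq_to_K] at h1
    have h2 : ‖ξ‖ ^ 2 = 1 := by simpa using congrArg norm h1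
    nlinarith [norm_nonneg ξ]
  · have h1 := h y y
    rw [hg3, inner_self_eq_norm_sq_to_K] at h1
    have h2 : ‖τ y ξ‖ ^ 2 = 1 := by simpa using congrArg norm h1
    have h3 : ‖τ y ξ‖ = 1 := by
      nlinarith [norm_nonneg (τ y ξ)]
    have h4 : τ y ξ = ((‖x‖⁻¹ : ℝ) : ℂ) • τ x ξ := by
      rw [hy, map_smul]
      rfl
    rw [h4, norm_smul, Complex.norm_real, norm_inv, norm_norm] at h3
    field_simp at h3
    exact h3

end

end Vale.Agent.P083
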