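import Vale.Agent.P083.Free
import Vale.Agent.P083.State

/-!
# P083: extending representations from a unital subalgebra of the Cuntz algebra
-/

open Filter Topology
open scoped InnerProductSpace ComplexOrder CStarAlgebra

namespace Vale.Agent.P083

noncomputable section

variable {O : Type} [CStarAlgebra O]
variable {H : Type} [NormedAddCommGroup H] [InnerProductSpace ℂ H] [CompleteSpace H]
variable {A : Type} [CStarAlgebra A]

/-- A positive functional is bounded by its value at `1`. -/
theorem norm_le_of_positive {B : Type} [CStarAlgebra B] (f : B →ₗ[ℂ] ℂ)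
    (hf : ∀ x, 0 ≤ f (star x * x)) (x : B) : ‖f x‖ ≤ ‖f 1‖ * ‖x‖ := by
  obtain ⟨H, i1, i2, i3, τ, ξ, h⟩ := exists_gns f hf
  have h1 : f x = ⟪ξ, τ x ξ⟫_ℂ := by
    have := h 1 x
    rw [star_one, one_mul, rep_one] at this
    exact this.symm
  have h2 : f 1 = ⟪ξ, ξ⟫_ℂ := by
    have := h 1 1
    rw [star_one, one_mul, rep_one] at this
    exact this.symm
  have h3 : ‖f 1‖ = ‖ξ‖ ^ 2 := by
    rw [h2, inner_self_eq_norm_sq_to_K]
    simp
  rw [h1, h3]
  calc ‖⟪ξ, τ x ξ⟫_ℂ‖ ≤ ‖ξ‖ * ‖τ x ξ‖ := norm_inner_le_norm _ _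
    _ ≤ ‖ξ‖ * (‖x‖ * ‖ξ‖) := mul_le_mul_of_nonneg_left (rep_norm_le τ x ξ) (norm_nonneg _)
    _ = ‖ξ‖ ^ 2 * ‖x‖ := by ring

/-- Functionals of norm at most their value at `1` are positive. -/
theorem nonneg_of_norm_le {B : Type*} [CStarAlgebra B] (g : B →L[ℂ] ℂ) {c : ℝ} (hc : 0 ≤ c)
    (hg : ‖g‖ ≤ c) (h1 : g 1 = c) (x : B) : 0 ≤ g (star x * x) := by
  rcases hc.eq_or_lt with rfl | hc'
  · have h2 : g = 0 := by
      rw [← norm_eq_zero]
      exact le_antisymm hg (norm_nonneg _)
    simp [h2]
  · have h2 := nonneg_of_norm_one (((c⁻¹ : ℝ) : ℂ) • g) (by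
      rw [norm_smul, Complex.norm_real, norm_inv, Real.norm_eq_abs, abs_of_pos hc']
      rw [inv_mul_le_iff₀ hc', mul_one]
      exact hg) (by
      rw [ContinuousLinearMap.smul_apply, h1, smul_eq_mul, ← Complex.ofReal_mul,
        inv_mul_cancel₀ hc'.ne', Complex.ofReal_one]) x
    have h3 : g (star x * x) = (c : ℂ) * ((((c⁻¹ : ℝ) : ℂ) • g) (star x * x)) := by
      rw [ContinuousLinearMap.smul_apply, smul_eq_mul, ← mul_assoc, ← Complex.ofReal_mul,
        mul_inv_cancel₀ hc'.ne', Complex.ofReal_one, one_mul]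
    rw [h3]
    exact mul_nonneg (by exact_mod_cast hc) h2

section

variable [PartialOrder A] [StarOrderedRing A]

/-- the linear map underlying the embedding of the matrices over `A` in `O` -/
def thetaLin (s : Fin 2 → O) (j : A →⋆ₐ[ℂ] O) (n : ℕ) :
    CStarMatrix (Idx n) (Idx n) A →ₗ[ℂ] O where
  toFun m := ∑ a, ∑ b, tw s n a * j (m a b) * star (tw s n b)
  map_add' x y := by
    simp only [CStarMatrix.add_apply, map_add, mul_add, add_mul, Finset.sum_add_distrib]
  map_smul' c x := by
    simp only [CStarMatrix.smul_apply, map_smul, mul_smul_comm, smul_mul_assoc,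
      Finset.smul_sum, RingHom.id_apply]

/-- the embedding of the matrices over `A` in `O` -/
def theta {s : Fin 2 → O} (hs : Fam s) (j : A →⋆ₐ[ℂ] O) (n : ℕ) :
    CStarMatrix (Idx n) (Idx n) A →⋆ₐ[ℂ] O :=
  have hone : thetaLin s j n 1 = 1 := by
    rw [← tw_sum hs n]
    show ∑ a, ∑ b, tw s n a * j ((1 : CStarMatrix (Idx n) (Idx n) A) a b) * star (tw s n b) = _
    refine Finset.sum_congr rfl fun a _ => ?_
    rw [Finset.sum_eq_single a]
    · rw [CStarMatrix.one_apply_eq, map_one, mul_one]
    · intro b _ hb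
      rw [CStarMatrix.one_apply_ne hb.symm, map_zero, mul_zero, zero_mul]
    · intro h
      exact absurd (Finset.mem_univ _) h
  { toFun := thetaLin s j n
    map_one' := hone
    map_mul' := fun x y => by
      have h0 : ∀ a b c d : Idx n, (tw s n a * j (x a b) * star (tw s n b)) *
          (tw s n c * j (y c d) * star (tw s n d)) =
          if b = c then tw s n a * (j (x a b) * j (y c d)) * star (tw s n d) else 0 := by
        intro a b c d
        have h1 : (tw s n a * j (x a b) * star (tw s n b)) *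
            (tw s n c * j (y c d) * star (tw s n d)) =
            tw s n a * j (x a b) * (star (tw s n b) * tw s n c) * j (y c d) *
              star (tw s n d) := by
          simp only [mul_assoc]
        rw [h1, tw_orth hs]
        split_ifs
        · simp only [mul_one, mul_assoc]
        · simp
      have h2 : thetaLin s j n x * thetaLin s j n y = ∑ a, ∑ b, ∑ c, ∑ d,
          (if b = c then tw s n a * (j (x a b) * j (y c d)) * star (tw s n d) else 0) := by
        show (∑ a, ∑ b, tw s n a * j (x a b) * star (tw s n b)) *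
          (∑ a, ∑ b, tw s n a * j (y a b) * star (tw s n b)) = _
        rw [Finset.sum_mul]
        refine Finset.sum_congr rfl fun a _ => ?_
        rw [Finset.sum_mul]
        refine Finset.sum_congr rfl fun b _ => ?_
        rw [Finset.mul_sum]
        refine Finset.sum_congr rfl fun c _ => ?_
        rw [Finset.mul_sum]
        exact Finset.sum_congr rfl fun d _ => h0 a b c d
      rw [h2]
      show ∑ a, ∑ d, tw s n a * j ((x * y) a d) * star (tw s n d) = _
      refine Finset.sum_congr rfl fun a _ => ?_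
      symm
      calc ∑ b, ∑ c, ∑ d,
            (if b = c then tw s n a * (j (x a b) * j (y c d)) * star (tw s n d) else 0)
          = ∑ b, ∑ d, tw s n a * (j (x a b) * j (y b d)) * star (tw s n d) := by
            refine Finset.sum_congr rfl fun b _ => ?_
            rw [Finset.sum_comm]
            refine Finset.sum_congr rfl fun d _ => ?_
            rw [Finset.sum_ite_eq]
            simp
        _ = ∑ d, ∑ b, tw s n a * (j (x a b) * j (y b d)) * star (tw s n d) := Finset.sum_comm
        _ = _ := by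
            refine Finset.sum_congr rfl fun d _ => ?_
            rw [CStarMatrix.mul_apply, map_sum, Finset.mul_sum, Finset.sum_mul]
            simp only [map_mul]
    map_zero' := map_zero _
    map_add' := fun x y => map_add _ x y
    commutes' := fun c => by
      show thetaLin s j n (algebraMap ℂ _ c) = _
      rw [Algebra.algebraMap_eq_smul_one, map_smul, hone, ← Algebra.algebraMap_eq_smul_one]
    map_star' := fun x => by
      show ∑ a, ∑ b, tw s n a * j ((star x) a b) * star (tw s n b) =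
        star (∑ a, ∑ b, tw s n a * j (x a b) * star (tw s n b))
      rw [star_sum]
      simp only [star_sum]
      rw [Finset.sum_comm]
      refine Finset.sum_congr rfl fun a _ => Finset.sum_congr rfl fun b _ => ?_
      rw [CStarMatrix.star_apply, map_star, star_mul, star_mul, star_star, mul_assoc] }

theorem theta_apply {s : Fin 2 → O} (hs : Fam s) (j : A →⋆ₐ[ℂ] O) (n : ℕ)
    (m : CStarMatrix (Idx n) (Idx n) A) :
    theta hs j n m = ∑ a, ∑ b, tw s n a * j (m a b) * star (tw s n b) := rfl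

theorem theta_injective {s : Fin 2 → O} (hs : Fam s) (j : A →⋆ₐ[ℂ] O)
    (hj : Function.Injective j) (n : ℕ) : Function.Injective (theta hs j n) := by
  rw [injective_iff_map_eq_zero]
  intro m hm
  ext a b
  rw [CStarMatrix.zero_apply]
  apply hj
  rw [map_zero]
  have h1 : star (tw s n a) * theta hs j n m * tw s n b = j (m a b) := by
    rw [theta_apply, Finset.mul_sum, Finset.sum_mul, Finset.sum_eq_single a]
    · rw [Finset.mul_sum, Finset.sum_mul, Finset.sum_eq_single b]
      · have : star (tw s n a) * (tw s n a * j (m a b) * star (tw s n b)) * tw s n b =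
            (star (tw s n a) * tw s n a) * j (m a b) * (star (tw s n b) * tw s n b) := by
          simp only [mul_assoc]
        rw [this, tw_orth hs, tw_orth hs]
        simp
      · intro c _ hc
        have : star (tw s n a) * (tw s n a * j (m a c) * star (tw s n c)) * tw s n b =
            (star (tw s n a) * tw s n a) * j (m a c) * (star (tw s n c) * tw s n b) := by
          simp only [mul_assoc]
        rw [this, tw_orth hs, tw_orth hs, if_neg hc, mul_zero]
      · intro h
        exact absurd (Finset.mem_univ _) h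
    · intro c _ hc
      rw [Finset.mul_sum, Finset.sum_mul]
      refine Finset.sum_eq_zero fun d _ => ?_
      have : star (tw s n a) * (tw s n c * j (m c d) * star (tw s n d)) * tw s n b =
          (star (tw s n a) * tw s n c) * j (m c d) * (star (tw s n d) * tw s n b) := by
        simp only [mul_assoc]
      rw [this, tw_orth hs, if_neg hc.symm, zero_mul, zero_mul]
    · intro h
      exact absurd (Finset.mem_univ _) h
  rw [← h1, hm, mul_zero, zero_mul]

/-- the functional `m ↦ ∑ ⟪e a, σ (m a b) (e b)⟫` -/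
def FF (σ : A →⋆ₐ[ℂ] (H →L[ℂ] H)) {n : ℕ} (e : Idx n → H) :
    CStarMatrix (Idx n) (Idx n) A →ₗ[ℂ] ℂ where
  toFun m := ∑ a, ∑ b, ⟪e a, σ (m a b) (e b)⟫_ℂ
  map_add' x y := by
    simp only [CStarMatrix.add_apply, map_add, ContinuousLinearMap.add_apply, inner_add_right,
      Finset.sum_add_distrib]
  map_smul' c x := by
    simp only [CStarMatrix.smul_apply, map_smul, ContinuousLinearMap.smul_apply,
      inner_smul_right, Finset.mul_sum, RingHom.id_apply, smul_eq_mul]

theorem FF_apply (σ : A →⋆ₐ[ℂ] (H →L[ℂ] H)) {n : ℕ} (e : Idx n → H)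
    (m : CStarMatrix (Idx n) (Idx n) A) : FF σ e m = ∑ a, ∑ b, ⟪e a, σ (m a b) (e b)⟫_ℂ := rfl

theorem FF_rank_one (σ : A →⋆ₐ[ℂ] (H →L[ℂ] H)) {n : ℕ} (e : Idx n → H) (x y : Idx n → A) :
    ∑ a, ∑ b, ⟪e a, σ (star (x a) * y b) (e b)⟫_ℂ =
      ⟪∑ a, σ (x a) (e a), ∑ b, σ (y b) (e b)⟫_ℂ := by
  rw [sum_inner]
  refine Finset.sum_congr rfl fun a _ => ?_
  rw [inner_sum]
  refine Finset.sum_congr rfl fun b _ => ?_
  rw [inner_rep]

theorem FF_nonneg (σ : A →⋆ₐ[ℂ] (H →L[ℂ] H)) {n : ℕ} (e : Idx n → H)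
    (m : CStarMatrix (Idx n) (Idx n) A) : 0 ≤ FF σ e (star m * m) := by
  have h1 : FF σ e (star m * m) =
      ∑ c, ⟪∑ a, σ (m c a) (e a), ∑ b, σ (m c b) (e b)⟫_ℂ := by
    have h2 : ∀ c, ⟪∑ a, σ (m c a) (e a), ∑ b, σ (m c b) (e b)⟫_ℂ =
        ∑ a, ∑ b, ⟪e a, σ (star (m c a) * m c b) (e b)⟫_ℂ :=
      fun c => (FF_rank_one σ e _ _).symm
    simp_rw [h2]
    rw [FF_apply]
    calc ∑ a, ∑ b, ⟪e a, σ ((star m * m) a b) (e b)⟫_ℂ
        = ∑ a, ∑ b, ∑ c, ⟪e a, σ (star (m c a) * m c b) (e b)⟫_ℂ := by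
          refine Finset.sum_congr rfl fun a _ => Finset.sum_congr rfl fun b _ => ?_
          rw [CStarMatrix.mul_apply, map_sum, ContinuousLinearMap.sum_apply, inner_sum]
          refine Finset.sum_congr rfl fun c _ => ?_
          rw [CStarMatrix.star_apply]
      _ = ∑ a, ∑ c, ∑ b, ⟪e a, σ (star (m c a) * m c b) (e b)⟫_ℂ :=
          Finset.sum_congr rfl fun a _ => Finset.sum_comm
      _ = _ := Finset.sum_comm
  rw [h1]
  refine Finset.sum_nonneg fun c _ => ?_
  rw [inner_self_eq_norm_sq_to_K]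
  positivity

end

/-- Representations of a unital subalgebra of `O` extend locally. -/
theorem locExt_of_injective {s₀ s₁ : O} (hp : IsCuntzPair s₀ s₁) (j : A →⋆ₐ[ℂ] O)
    (hj : Function.Injective j) (σ : A →⋆ₐ[ℂ] (H →L[ℂ] H)) : LocExt j σ := by
  classical
  intro E
  let _ := CStarAlgebra.spectralOrder A
  have _ := CStarAlgebra.spectralOrderedRing A
  have hs : Fam ![s₀, s₁] := fam_of_pair hp
  set s : Fin 2 → O := ![s₀, s₁] with hsdef
  have hfd : FiniteDimensional ℂ (Submodule.span ℂ (E : Set H)) :=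
    FiniteDimensional.span_of_finite ℂ E.finite_toSet
  set W := Submodule.span ℂ (E : Set H) with hW
  set n := Module.finrank ℂ W with hn
  set b := stdOrthonormalBasis ℂ W with hb
  have hc : Fintype.card (Fin n) ≤ Fintype.card (Idx n) := by
    rw [card_Idx, Fintype.card_fin]
    exact Nat.lt_two_pow_self.le
  obtain ⟨emb⟩ := Function.Embedding.nonempty_of_card_le hc
  set e : Idx n → H := Function.extend emb (fun i => ((b i : W) : H)) 0 with he
  have hexp : ∀ h ∈ W, ∑ a, ⟪e a, h⟫_ℂ • e a = h := by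
    intro h hh
    have h1 : ∑ i, ⟪((b i : W) : H), h⟫_ℂ • ((b i : W) : H) = ∑ a, ⟪e a, h⟫_ℂ • e a := by
      refine Fintype.sum_of_injective emb emb.injective _ _ ?_ ?_
      · intro a ha
        have : e a = 0 := by
          rw [he, Function.extend_apply' _ _ _ (by simpa using ha)]
          rfl
        rw [this, smul_zero]
      · intro i
        have : e (emb i) = ((b i : W) : H) := by
          rw [he, emb.injective.extend_apply]
        rw [this]
    rw [← h1]
    have h2 := congrArg (fun w : W => (w : H)) (b.sum_repr' ⟨h, hh⟩)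
    simp only [Submodule.coe_sum, Submodule.coe_smul, Submodule.coe_inner] at h2
    exact h2
  -- the functional on the matrices over `A`
  set F := FF σ e with hF
  have hFpos : ∀ m, 0 ≤ F (star m * m) := FF_nonneg σ e
  set c : ℝ := ‖F 1‖ with hcdef
  have hF1 : F 1 = c := by
    have h1 := hFpos 1
    rw [star_one, one_mul] at h1
    rw [hcdef]
    exact (RCLike.norm_of_nonneg' h1).symm
  have hinj := theta_injective hs j hj n
  set θ := theta hs j n with hθ
  have hnorm : ∀ m, ‖θ m‖ = ‖m‖ := fun m => NonUnitalStarAlgHom.norm_map θ hinj m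
  have hFle : ∀ m, ‖F m‖ ≤ c * ‖m‖ := fun m => norm_le_of_positive F hFpos m
  set θl : CStarMatrix (Idx n) (Idx n) A →ₗ[ℂ] O := θ.toAlgHom.toLinearMap with hθl
  have hinj' : Function.Injective θl := hinj
  set q := LinearEquiv.ofInjective θl hinj' with hq
  set f₀ : StrongDual ℂ (LinearMap.range θl) :=
    LinearMap.mkContinuous (F ∘ₗ (q.symm : LinearMap.range θl →ₗ[ℂ] _)) c (fun x => by
      have h1 : ‖x‖ = ‖q.symm x‖ := by
        rw [← hnorm]
        have h2 : ((q (q.symm x) : LinearMap.range θl) : O) = θ (q.symm x) := rfl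
        rw [← h2, q.apply_symm_apply]
        rfl
      rw [h1]
      exact hFle _) with hf₀
  obtain ⟨g, hg1, hg2⟩ := exists_extension_norm_eq (LinearMap.range θl) f₀
  have hgθ : ∀ m, g (θ m) = F m := by
    intro m
    have h1 := hg1 (q m)
    have h2 : ((q m : LinearMap.range θl) : O) = θ m := rfl
    rw [h2] at h1
    rw [h1]
    show F (q.symm (q m)) = F m
    rw [q.symm_apply_apply]
  have hgc : ‖g‖ ≤ c := by
    rw [hg2]
    exact LinearMap.mkContinuous_norm_le _ (norm_nonneg _) _
  have hg1' : g 1 = c := by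
    have h1 : θ 1 = 1 := map_one θ
    rw [← hF1, ← hgθ 1, h1]
  obtain ⟨H', i1, i2, i3, τ, η, hτ⟩ := exists_gns (g : O →ₗ[ℂ] ℂ)
    (fun x => nonneg_of_norm_le g (norm_nonneg _) hgc hg1' x)
  -- the key identity
  have key : ∀ x : Idx n → A, ‖∑ a, τ (j (x a)) (τ (star (tw s n a)) η)‖ =
      ‖∑ a, σ (x a) (e a)‖ := by
    intro x
    have h1 : ⟪∑ a, τ (j (x a)) (τ (star (tw s n a)) η),
        ∑ a, τ (j (x a)) (τ (star (tw s n a)) η)⟫_ℂ =
        ⟪∑ a, σ (x a) (e a), ∑ a, σ (x a) (e a)⟫_ℂ := by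
      rw [← FF_rank_one σ e x x]
      have h2 := hgθ (CStarMatrix.ofMatrix (fun a b => star (x a) * x b))
      have h3 : F (CStarMatrix.ofMatrix (fun a b => star (x a) * x b)) =
          ∑ a, ∑ b, ⟪e a, σ (star (x a) * x b) (e b)⟫_ℂ := rfl
      rw [← h3, ← h2, hθ, theta_apply, map_sum, sum_inner]
      refine Finset.sum_congr rfl fun a _ => ?_
      rw [map_sum, inner_sum]
      refine Finset.sum_congr rfl fun b _ => ?_
      rw [← rep_mul, ← rep_mul, hτ]
      show g _ = g _
      congr 1
      show _ = tw s n a * j (star (x a) * x b) * star (tw s n b)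
      rw [star_mul, star_star, map_mul, map_star]
      simp only [mul_assoc]
    rw [inner_self_eq_norm_sq_to_K, inner_self_eq_norm_sq_to_K] at h1
    have h2 : ‖∑ a, τ (j (x a)) (τ (star (tw s n a)) η)‖ ^ 2 = ‖∑ a, σ (x a) (e a)‖ ^ 2 := by
      exact_mod_cast h1
    exact (sq_eq_sq₀ (norm_nonneg _) (norm_nonneg _)).1 h2
  let R : H →ₗ[ℂ] H' :=
    { toFun := fun h => ∑ a, ⟪e a, h⟫_ℂ • τ (star (tw s n a)) η
      map_add' := fun x y => by
        simp only [inner_add_right, add_smul, Finset.sum_add_distrib]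
      map_smul' := fun r x => by
        simp only [inner_smul_right, mul_smul, Finset.smul_sum, RingHom.id_apply] }
  have hR : ∀ h, R h = ∑ a, ⟪e a, h⟫_ℂ • τ (star (tw s n a)) η := fun h => rfl
  refine ⟨H', i1, i2, i3, τ, R, ?_, ?_⟩
  · intro h hh
    have h1 := key (fun a => ⟪e a, h⟫_ℂ • (1 : A))
    have h2 : ∑ a, τ (j (⟪e a, h⟫_ℂ • (1 : A))) (τ (star (tw s n a)) η) = R h := by
      rw [hR]
      refine Finset.sum_congr rfl fun a _ => ?_
      rw [map_smul, map_smul, map_one, map_one]
      rfl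
    have h3 : ∑ a, σ (⟪e a, h⟫_ℂ • (1 : A)) (e a) = h := by
      conv_rhs => rw [← hexp h hh]
      refine Finset.sum_congr rfl fun a _ => ?_
      rw [map_smul, map_one]
      rfl
    rw [h2, h3] at h1
    exact h1
  · intro x h hh hh'
    have h1 := key (fun a => ⟪e a, h⟫_ℂ • x - ⟪e a, σ x h⟫_ℂ • (1 : A))
    have h2 : ∑ a, τ (j (⟪e a, h⟫_ℂ • x - ⟪e a, σ x h⟫_ℂ • (1 : A)))
        (τ (star (tw s n a)) η) = τ (j x) (R h) - R (σ x h) := by
      rw [hR, hR, map_sum, ← Finset.sum_sub_distrib]
      refine Finset.sum_congr rfl fun a _ => ?_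
      rw [map_sub, map_sub, map_smul, map_smul, map_smul, map_smul, map_one, map_one, map_smul]
      rfl
    have h3 : ∑ a, σ (⟪e a, h⟫_ℂ • x - ⟪e a, σ x h⟫_ℂ • (1 : A)) (e a) = 0 := by
      have h4 : ∑ a, σ (⟪e a, h⟫_ℂ • x - ⟪e a, σ x h⟫_ℂ • (1 : A)) (e a) =
          σ x (∑ a, ⟪e a, h⟫_ℂ • e a) - ∑ a, ⟪e a, σ x h⟫_ℂ • e a := by
        rw [map_sum, ← Finset.sum_sub_distrib]
        refine Finset.sum_congr rfl fun a _ => ?_
        rw [map_sub, map_smul, map_smul, map_one, map_smul]
        rfl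
      rw [h4, hexp h hh, hexp _ hh', sub_self]
    rw [h2, h3, norm_zero, norm_eq_zero] at h1
    exact sub_eq_zero.1 h1

end

end Vale.Agent.P083
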