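import Vale.Agent.P083.Conv

/-!
# P083: approximating representations of a full free product
-/

open Filter Topology
open scoped InnerProductSpace

namespace Vale.Agent.P083

noncomputable section

variable {O : Type} [CStarAlgebra O]
variable {K : Type} [NormedAddCommGroup K] [InnerProductSpace ℂ K] [CompleteSpace K]
variable {H : Type} [NormedAddCommGroup H] [InnerProductSpace ℂ H] [CompleteSpace H]

/-- Locally (on finite sets of vectors) the representation `σ` of `A` extends, along `j`, to a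
representation of `O`. -/
def LocExt {A : Type} [CStarAlgebra A] (j : A →⋆ₐ[ℂ] O) (σ : A →⋆ₐ[ℂ] (H →L[ℂ] H)) : Prop :=
  ∀ E : Finset H, ∃ (H' : Type) (_ : NormedAddCommGroup H') (_ : InnerProductSpace ℂ H')
    (_ : CompleteSpace H') (τ : O →⋆ₐ[ℂ] (H' →L[ℂ] H')) (R : H →ₗ[ℂ] H'),
    (∀ h ∈ Submodule.span ℂ (E : Set H), ‖R h‖ = ‖h‖) ∧
      ∀ a, ∀ h ∈ Submodule.span ℂ (E : Set H), σ a h ∈ Submodule.span ℂ (E : Set H) →
        τ (j a) (R h) = R (σ a h)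

/-- conjugation of a homomorphism by a unitary -/
def conjHom {A : Type} [CStarAlgebra A] (w : O) (hw : w ∈ unitary O) (φ : A →⋆ₐ[ℂ] O) :
    A →⋆ₐ[ℂ] O where
  toFun a := w * φ a * star w
  map_one' := by rw [map_one, mul_one, Unitary.mul_star_self_of_mem hw]
  map_mul' x y := by
    rw [map_mul]
    have h := Unitary.star_mul_self_of_mem hw
    calc w * (φ x * φ y) * star w = w * φ x * 1 * φ y * star w := by noncomm_ring
      _ = w * φ x * (star w * w) * φ y * star w := by rw [h]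
      _ = _ := by noncomm_ring
  map_zero' := by simp
  map_add' x y := by rw [map_add, mul_add, add_mul]
  commutes' c := by
    rw [AlgHomClass.commutes, ← Algebra.commutes, mul_assoc, Unitary.mul_star_self_of_mem hw,
      mul_one]
  map_star' x := by simp [map_star, mul_assoc]

theorem exists_free_step {s₀ s₁ : O} (hO : IsCuntzAlgebra s₀ s₁) (ρ : O →⋆ₐ[ℂ] (K →L[ℂ] K))
    {e : K} (he : ‖e‖ = 1) (hfix : ρ s₀ e = e) {I : Type*} {A : I → Type}
    [∀ i, CStarAlgebra (A i)] {P : Type} [CStarAlgebra P] {ι : ∀ i, A i →⋆ₐ[ℂ] P}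
    (hP : IsFreeProduct ι) (j : ∀ i, A i →⋆ₐ[ℂ] O) (π : P →⋆ₐ[ℂ] (H →L[ℂ] H))
    (hext : ∀ i, LocExt (j i) (π.comp (ι i))) (E : Finset H) (Y : Finset (Σ i, A i)) {ε : ℝ}
    (hε : 0 < ε) :
    ∃ (Φ : P →⋆ₐ[ℂ] O) (v : H →ₗ[ℂ] K), (∀ h ∈ Submodule.span ℂ (E : Set H), ‖v h‖ = ‖h‖) ∧
      (∀ h, ‖v h‖ ≤ ‖h‖) ∧ ∀ p ∈ Y, ∀ h ∈ E, π (ι p.1 p.2) h ∈ Submodule.span ℂ (E : Set H) →
        ‖ρ (Φ (ι p.1 p.2)) (v h) - v (π (ι p.1 p.2) h)‖ ≤ ε := by
  classical
  have hs : Fam ![s₀, s₁] := fam_of_pair hO.pair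
  have hfix' : ρ (![s₀, s₁] 0) e = e := hfix
  have : FiniteDimensional ℂ (Submodule.span ℂ (E : Set H)) :=
    FiniteDimensional.span_of_finite ℂ E.finite_toSet
  set W := Submodule.span ℂ (E : Set H) with hW
  obtain ⟨k, v, hv1, hv2, hv3⟩ := exists_embed ρ hs he W
  have key : ∀ i, ∃ ψ : A i →⋆ₐ[ℂ] O, ∀ a : A i, (⟨i, a⟩ : Σ i, A i) ∈ Y → ∀ h ∈ E,
      π (ι i a) h ∈ W → ‖ρ (ψ a) (v h) - v (π (ι i a) h)‖ ≤ ε := by
    intro i
    obtain ⟨H', i1, i2, i3, τ, R, hR1, hR2⟩ := hext i E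
    obtain ⟨φ, k', V, hV1, hV2, hV3⟩ := exists_approx hO ρ he hfix τ (E.image R)
      (Y.image fun p : Σ i, A i => j p.1 p.2) hε
    have hRW : ∀ h ∈ W, R h ∈ Submodule.span ℂ ((E.image R : Finset H') : Set H') := by
      intro h hh
      rw [Finset.coe_image, Submodule.span_image]
      exact ⟨h, hh, rfl⟩
    obtain ⟨w, hw, hw'⟩ := exists_unitary ρ hs he (max k k') (V ∘ₗ R ∘ₗ W.subtype)
      (v ∘ₗ W.subtype)
      (fun m => Fs_mono ρ hfix' (le_max_right k k') (hV1 _))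
      (fun m => Fs_mono ρ hfix' (le_max_left k k') (hv1 _))
      (fun m => by
        show ‖V (R m)‖ = ‖v m‖
        rw [hV2 _ (hRW m m.2), hR1 m m.2, hv2 m m.2])
    have hw'' : ∀ h ∈ W, ρ w (V (R h)) = v h := fun h hh => hw' ⟨h, hh⟩
    refine ⟨conjHom w hw (φ.comp (j i)), fun a ha h hh hh' => ?_⟩
    have hhW : h ∈ W := Submodule.subset_span hh
    have e1 : ρ (conjHom w hw (φ.comp (j i)) a) (v h) = ρ w (ρ (φ (j i a)) (V (R h))) := by
      show ρ (w * φ (j i a) * star w) (v h) = _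
      rw [rep_mul, rep_mul, ← hw'' h hhW, ← rep_mul ρ (star w), Unitary.star_mul_self_of_mem hw,
        rep_one]
    have e2 : v (π (ι i a) h) = ρ w (V (τ (j i a) (R h))) := by
      rw [hR2 a h hhW hh']
      exact (hw'' _ hh').symm
    rw [e1, e2, ← map_sub, rep_unitary_norm ρ (Unitary.star_mul_self_of_mem hw)]
    exact hV3 _ (Finset.mem_image.2 ⟨⟨i, a⟩, ha, rfl⟩) _ (Finset.mem_image_of_mem _ hh)
  choose ψ hψ using key
  obtain ⟨Φ, hΦ⟩ := hP.universal O ψ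
  refine ⟨Φ, v, hv2, hv3, fun p hp h hh hh' => ?_⟩
  rw [hΦ]
  exact hψ p.1 p.2 hp h hh hh'

/-- The norm of `π x ξ` is approximated by the norms of the images of `x` in `O`. -/
theorem exists_hom_of_rep {s₀ s₁ : O} (hO : IsCuntzAlgebra s₀ s₁) (ρ : O →⋆ₐ[ℂ] (K →L[ℂ] K))
    {e : K} (he : ‖e‖ = 1) (hfix : ρ s₀ e = e) {I : Type*} {A : I → Type}
    [∀ i, CStarAlgebra (A i)] {P : Type} [CStarAlgebra P] {ι : ∀ i, A i →⋆ₐ[ℂ] P}
    (hP : IsFreeProduct ι) (j : ∀ i, A i →⋆ₐ[ℂ] O) (π : P →⋆ₐ[ℂ] (H →L[ℂ] H))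
    (hext : ∀ i, LocExt (j i) (π.comp (ι i))) (x : P) (ξ : H) (hξ : ‖ξ‖ ≤ 1) {ε : ℝ}
    (hε : 0 < ε) : ∃ Φ : P →⋆ₐ[ℂ] O, ‖π x ξ‖ - ε ≤ ‖Φ x‖ := by
  classical
  have hstep := fun d : Finset H × Finset (Σ i, A i) × ℕ =>
    exists_free_step hO ρ he hfix hP j π hext d.1 d.2.1 (ε := 1 / ((d.2.2 : ℝ) + 1))
      (by positivity)
  choose Φ v h1 h2 h3 using hstep
  have hconv : ∀ x, Conv ρ (atTop : Filter (Finset H × Finset (Σ i, A i) × ℕ)) Φ π v x := by
    have key : ∀ x ∈ ⋃ i, Set.range (ι i),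
        Conv ρ (atTop : Filter (Finset H × Finset (Σ i, A i) × ℕ)) Φ π v x := by
      intro x hx h
      obtain ⟨i, a, rfl⟩ := Set.mem_iUnion.1 hx
      rw [Metric.tendsto_atTop]
      intro δ hδ
      obtain ⟨N, hN⟩ := exists_nat_one_div_lt hδ
      refine ⟨({h, π (ι i a) h}, {⟨i, a⟩}, N), fun d hd => ?_⟩
      obtain ⟨hd1, hd2, hd3⟩ := hd
      have m1 : h ∈ d.1 := hd1 (by simp)
      have m2 : π (ι i a) h ∈ d.1 := hd1 (by simp)
      have m3 : (⟨i, a⟩ : Σ i, A i) ∈ d.2.1 := hd2 (by simp)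
      rw [dist_zero_right]
      refine (h3 d ⟨i, a⟩ m3 h m1 (Submodule.subset_span m2)).trans_lt (lt_of_le_of_lt ?_ hN)
      have h4 : (N : ℝ) ≤ d.2.2 := by exact_mod_cast hd3
      exact one_div_le_one_div_of_le (by positivity) (by linarith)
    refine Conv.all h2 (S := ⋃ i, Set.range (ι i)) key ?_ hP.generates
    intro x hx
    refine key _ ?_
    obtain ⟨i, a, rfl⟩ := Set.mem_iUnion.1 hx
    exact Set.mem_iUnion.2 ⟨i, star a, map_star _ _⟩
  have h4 := Metric.tendsto_nhds.1 (hconv x ξ) ε hε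
  have h5 := h4.and (eventually_ge_atTop
    (({π x ξ}, ∅, 0) : Finset H × Finset (Σ i, A i) × ℕ))
  obtain ⟨d, hd1, hd2⟩ := h5.exists
  refine ⟨Φ d, ?_⟩
  have m1 : π x ξ ∈ d.1 := hd2.1 (by simp)
  have h6 := h1 d _ (Submodule.subset_span m1)
  rw [dist_zero_right] at hd1
  have h7 : ‖v d (π x ξ)‖ - ‖ρ (Φ d x) (v d ξ)‖ ≤ ‖ρ (Φ d x) (v d ξ) - v d (π x ξ)‖ := by
    rw [← norm_neg (ρ (Φ d x) (v d ξ) - v d (π x ξ)), neg_sub]
    exact norm_sub_norm_le _ _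
  have h8 : ‖ρ (Φ d x) (v d ξ)‖ ≤ ‖Φ d x‖ := by
    refine (rep_norm_le ρ _ _).trans ?_
    have h9 : ‖v d ξ‖ ≤ 1 := (h2 d ξ).trans hξ
    exact mul_le_of_le_one_right (norm_nonneg _) h9
  linarith

theorem norm_one_le_one (O : Type*) [CStarAlgebra O] : ‖(1 : O)‖ ≤ 1 := by
  rcases subsingleton_or_nontrivial O with h | h
  · rw [Subsingleton.elim (1 : O) 0, norm_zero]
    exact zero_le_one
  · exact (CStarRing.norm_one).le

/-- The direct sum of two homomorphisms. -/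
theorem exists_sum_hom {P : Type} [CStarAlgebra P] {s₀ s₁ : O} (hp : IsCuntzPair s₀ s₁)
    (φ ψ : P →⋆ₐ[ℂ] O) : ∃ χ : P →⋆ₐ[ℂ] O, ∀ x, ‖φ x‖ ≤ ‖χ x‖ ∧ ‖ψ x‖ ≤ ‖χ x‖ := by
  have h01 := pair_orth hp
  have h10 : star s₁ * s₀ = 0 := by
    have := congrArg star h01
    simpa using this
  have e1 : ∀ a b c d : O, (s₀ * a * star s₀ + s₁ * b * star s₁) *
      (s₀ * c * star s₀ + s₁ * d * star s₁) = s₀ * (a * c) * star s₀ + s₁ * (b * d) * star s₁ := by
    intro a b c d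
    have : (s₀ * a * star s₀ + s₁ * b * star s₁) * (s₀ * c * star s₀ + s₁ * d * star s₁) =
        s₀ * a * (star s₀ * s₀) * c * star s₀ + s₀ * a * (star s₀ * s₁) * d * star s₁ +
        (s₁ * b * (star s₁ * s₀) * c * star s₀ + s₁ * b * (star s₁ * s₁) * d * star s₁) := by
      noncomm_ring
    rw [this, hp.iso₀, hp.iso₁, h01, h10]
    noncomm_ring
  let χ : P →⋆ₐ[ℂ] O :=
    { toFun := fun x => s₀ * φ x * star s₀ + s₁ * ψ x * star s₁
      map_one' := by rw [map_one, map_one, mul_one, mul_one, hp.sum]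
      map_mul' := fun x y => by rw [map_mul, map_mul, e1]
      map_zero' := by simp
      map_add' := fun x y => by
        rw [map_add, map_add]
        noncomm_ring
      commutes' := fun c => by
        rw [AlgHomClass.commutes, AlgHomClass.commutes, ← Algebra.commutes, ← Algebra.commutes,
          mul_assoc, mul_assoc, ← mul_add, hp.sum, mul_one]
      map_star' := fun x => by simp [map_star, mul_assoc] }
  have n0 : ‖s₀‖ ≤ 1 := by
    have : ‖s₀‖ * ‖s₀‖ ≤ 1 := by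
      rw [← CStarRing.norm_star_mul_self, hp.iso₀]
      exact norm_one_le_one O
    nlinarith [norm_nonneg s₀]
  have n1 : ‖s₁‖ ≤ 1 := by
    have : ‖s₁‖ * ‖s₁‖ ≤ 1 := by
      rw [← CStarRing.norm_star_mul_self, hp.iso₁]
      exact norm_one_le_one O
    nlinarith [norm_nonneg s₁]
  refine ⟨χ, fun x => ⟨?_, ?_⟩⟩
  · have h1 : star s₀ * χ x * s₀ = φ x := by
      have : star s₀ * (s₀ * φ x * star s₀ + s₁ * ψ x * star s₁) * s₀ =
          (star s₀ * s₀) * φ x * (star s₀ * s₀) + (star s₀ * s₁) * ψ x * (star s₁ * s₀) := by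
        noncomm_ring
      show star s₀ * (s₀ * φ x * star s₀ + s₁ * ψ x * star s₁) * s₀ = _
      rw [this, hp.iso₀, h01]
      noncomm_ring
    rw [← h1]
    refine (norm_mul_le _ _).trans ?_
    refine (mul_le_of_le_one_right (norm_nonneg _) n0).trans ?_
    refine (norm_mul_le _ _).trans ?_
    rw [norm_star]
    exact mul_le_of_le_one_left (norm_nonneg _) n0
  · have h1 : star s₁ * χ x * s₁ = ψ x := by
      have : star s₁ * (s₀ * φ x * star s₀ + s₁ * ψ x * star s₁) * s₁ =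
          (star s₁ * s₀) * φ x * (star s₀ * s₁) + (star s₁ * s₁) * ψ x * (star s₁ * s₁) := by
        noncomm_ring
      show star s₁ * (s₀ * φ x * star s₀ + s₁ * ψ x * star s₁) * s₁ = _
      rw [this, hp.iso₁, h01]
      noncomm_ring
    rw [← h1]
    refine (norm_mul_le _ _).trans ?_
    refine (mul_le_of_le_one_right (norm_nonneg _) n1).trans ?_
    refine (norm_mul_le _ _).trans ?_
    rw [norm_star]
    exact mul_le_of_le_one_left (norm_nonneg _) n1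

/-- The direct sum of finitely many homomorphisms. -/
theorem exists_hom_finset {P : Type} [CStarAlgebra P] {s₀ s₁ : O} (hp : IsCuntzPair s₀ s₁)
    (φ : ℕ → (P →⋆ₐ[ℂ] O)) (n : ℕ) : ∃ χ : P →⋆ₐ[ℂ] O, ∀ l ≤ n, ∀ x, ‖φ l x‖ ≤ ‖χ x‖ := by
  induction n with
  | zero =>
    refine ⟨φ 0, fun l hl x => ?_⟩
    obtain rfl : l = 0 := by omega
    exact le_rfl
  | succ n ih =>
    obtain ⟨χ, hχ⟩ := ih
    obtain ⟨χ', hχ'⟩ := exists_sum_hom hp χ (φ (n + 1))
    refine ⟨χ', fun l hl x => ?_⟩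
    rcases Nat.lt_or_ge n l with h | h
    · obtain rfl : l = n + 1 := by omega
      exact (hχ' x).2
    · exact (hχ l h x).trans (hχ' x).1

end

end Vale.Agent.P083
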