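import Vale.Agent.P083.Trans

/-!
# P083: approximating representations of the Cuntz algebra by endomorphisms
-/

open Filter Topology
open scoped InnerProductSpace

namespace Vale.Agent.P083

noncomputable section

variable {O : Type} [CStarAlgebra O]
variable {K : Type} [NormedAddCommGroup K] [InnerProductSpace ℂ K] [CompleteSpace K]
variable {H : Type} [NormedAddCommGroup H] [InnerProductSpace ℂ H] [CompleteSpace H]

theorem rep_norm_le {B : Type*} [CStarAlgebra B] (ρ : B →⋆ₐ[ℂ] (K →L[ℂ] K)) (x : B) (h : K) :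
    ‖ρ x h‖ ≤ ‖x‖ * ‖h‖ :=
  ((ρ x).le_opNorm h).trans
    (mul_le_mul_of_nonneg_right (NonUnitalStarAlgHom.norm_apply_le ρ x) (norm_nonneg h))

theorem rep_unitary_norm {B : Type*} [CStarAlgebra B] (ρ : B →⋆ₐ[ℂ] (K →L[ℂ] K)) {x : B}
    (hx : star x * x = 1) (h : K) : ‖ρ x h‖ = ‖h‖ := by
  have h1 : ⟪ρ x h, ρ x h⟫_ℂ = ⟪h, h⟫_ℂ := by
    rw [inner_rep, hx, rep_one]
  rw [inner_self_eq_norm_sq_to_K, inner_self_eq_norm_sq_to_K] at h1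
  have h2 : ‖ρ x h‖ ^ 2 = ‖h‖ ^ 2 := by exact_mod_cast h1
  exact (sq_eq_sq₀ (norm_nonneg _) (norm_nonneg _)).1 h2

theorem norm_pair (ρ : O →⋆ₐ[ℂ] (K →L[ℂ] K)) {s : Fin 2 → O} (hs : Fam s) (a b : K) :
    ‖ρ (s 0) a + ρ (s 1) b‖ ^ 2 = ‖a‖ ^ 2 + ‖b‖ ^ 2 := by
  have h0 : ⟪ρ (s 0) a, ρ (s 1) b⟫_ℂ = 0 := by
    rw [inner_rep, hs.orth]
    simp
  rw [norm_add_sq (𝕜 := ℂ), h0, rep_unitary_norm ρ (by simpa using hs.orth 0 0),
    rep_unitary_norm ρ (by simpa using hs.orth 1 1)]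
  simp

/-- A finite-dimensional space embeds in some `Fs k`. -/
theorem exists_embed (ρ : O →⋆ₐ[ℂ] (K →L[ℂ] K)) {s : Fin 2 → O} (hs : Fam s) {e : K}
    (he : ‖e‖ = 1) (W : Submodule ℂ H) [FiniteDimensional ℂ W] :
    ∃ (k : ℕ) (V : H →ₗ[ℂ] K), (∀ h, V h ∈ Fs ρ s e k) ∧ (∀ h ∈ W, ‖V h‖ = ‖h‖) ∧
      ∀ h, ‖V h‖ ≤ ‖h‖ := by
  classical
  set n := Module.finrank ℂ W with hn
  set b := stdOrthonormalBasis ℂ W with hb
  have hc : Fintype.card (Fin n) ≤ Fintype.card (Idx n) := by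
    rw [card_Idx, Fintype.card_fin]
    exact Nat.lt_two_pow_self.le
  obtain ⟨emb⟩ := Function.Embedding.nonempty_of_card_le hc
  set V₀ : W →ₗ[ℂ] K := b.toBasis.constr ℂ (fun i => fv ρ s e n (emb i)) with hV₀
  have hb1 : Orthonormal ℂ b.toBasis := by
    rw [OrthonormalBasis.coe_toBasis]
    exact b.orthonormal
  have hb2 : (V₀ ∘ b.toBasis : Fin n → K) = fun i => fv ρ s e n (emb i) := by
    funext i
    simp [hV₀]
  have hb3 : Orthonormal ℂ (V₀ ∘ b.toBasis) := by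
    rw [hb2]
    exact (fv_orthonormal ρ hs he n).comp _ emb.injective
  have hiso : ∀ w : W, ‖V₀ w‖ = ‖w‖ := (V₀.isometryOfOrthonormal hb1 hb3).norm_map
  have hmem : ∀ w : W, V₀ w ∈ Fs ρ s e n := by
    intro w
    rw [← b.toBasis.sum_repr w, map_sum]
    refine Submodule.sum_mem _ fun i _ => ?_
    rw [map_smul]
    refine Submodule.smul_mem _ _ ?_
    have : V₀ (b.toBasis i) = fv ρ s e n (emb i) := congrFun hb2 i
    rw [this]
    exact Submodule.subset_span ⟨_, rfl⟩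
  refine ⟨n, V₀ ∘ₗ (W.orthogonalProjectionOnto : H →ₗ[ℂ] W), fun h => hmem _, ?_, ?_⟩
  · intro h hh
    show ‖V₀ (W.orthogonalProjectionOnto h)‖ = ‖h‖
    rw [hiso]
    exact Submodule.norm_orthogonalProjectionOnto_apply W hh
  · intro h
    show ‖V₀ (W.orthogonalProjectionOnto h)‖ ≤ ‖h‖
    rw [hiso]
    exact Submodule.norm_orthogonalProjectionOnto_apply_le W h

/-- endomorphisms of the Cuntz algebra from unitaries -/
theorem exists_endo {s₀ s₁ : O} (hO : IsCuntzAlgebra s₀ s₁) {u : O} (hu : u ∈ unitary O) :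
    ∃ φ : O →⋆ₐ[ℂ] O, ∀ b, φ (![s₀, s₁] b) = u * ![s₀, s₁] b := by
  have h1 := Unitary.star_mul_self_of_mem hu
  have h2 := Unitary.mul_star_self_of_mem hu
  have hp : IsCuntzPair (u * s₀) (u * s₁) := by
    refine ⟨?_, ?_, ?_⟩
    · rw [star_mul, mul_assoc, ← mul_assoc (star u), h1, one_mul, hO.pair.iso₀]
    · rw [star_mul, mul_assoc, ← mul_assoc (star u), h1, one_mul, hO.pair.iso₁]
    · have : u * s₀ * star (u * s₀) + u * s₁ * star (u * s₁) =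
          u * (s₀ * star s₀ + s₁ * star s₁) * star u := by
        simp only [star_mul]
        noncomm_ring
      rw [this, hO.pair.sum, mul_one, h2]
  obtain ⟨φ, h0, h1'⟩ := hO.universal O _ _ hp
  refine ⟨φ, fun b => ?_⟩
  fin_cases b
  · exact h0
  · exact h1'

/-- One step of the approximation. -/
theorem exists_step {s₀ s₁ : O} (hO : IsCuntzAlgebra s₀ s₁) (ρ : O →⋆ₐ[ℂ] (K →L[ℂ] K)) {e : K}
    (he : ‖e‖ = 1) (hfix : ρ s₀ e = e) (τ : O →⋆ₐ[ℂ] (H →L[ℂ] H)) (W : Submodule ℂ H)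
    [FiniteDimensional ℂ W] :
    ∃ (φ : O →⋆ₐ[ℂ] O) (k : ℕ) (V : H →ₗ[ℂ] K), (∀ h, V h ∈ Fs ρ ![s₀, s₁] e k) ∧
      (∀ h ∈ W, ‖V h‖ = ‖h‖) ∧ (∀ h, ‖V h‖ ≤ ‖h‖) ∧
      (∀ b, ∀ h ∈ W, τ (![s₀, s₁] b) h ∈ W →
        ρ (φ (![s₀, s₁] b)) (V h) = V (τ (![s₀, s₁] b) h)) ∧
      (∀ h ∈ W, (∀ b, τ (star (![s₀, s₁] b)) h ∈ W) → ∀ b,
        ρ (φ (star (![s₀, s₁] b))) (V h) = V (τ (star (![s₀, s₁] b)) h)) := by
  have hs : Fam ![s₀, s₁] := fam_of_pair hO.pair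
  set s : Fin 2 → O := ![s₀, s₁] with hsdef
  have hfix' : ρ (s 0) e = e := hfix
  obtain ⟨k, V, hV1, hV2, hV3⟩ := exists_embed ρ hs he W
  set T : H × H →ₗ[ℂ] H := (τ (s 0) : H →ₗ[ℂ] H) ∘ₗ LinearMap.fst ℂ H H +
    (τ (s 1) : H →ₗ[ℂ] H) ∘ₗ LinearMap.snd ℂ H H with hT
  have hTapp : ∀ p, T p = τ (s 0) p.1 + τ (s 1) p.2 := fun p => rfl
  set M : Submodule ℂ (H × H) := W.prod W ⊓ W.comap T with hM
  set X₀ : H × H →ₗ[ℂ] K := (ρ (s 0) : K →ₗ[ℂ] K) ∘ₗ V ∘ₗ LinearMap.fst ℂ H H +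
    (ρ (s 1) : K →ₗ[ℂ] K) ∘ₗ V ∘ₗ LinearMap.snd ℂ H H with hX₀
  have hX₀app : ∀ p, X₀ p = ρ (s 0) (V p.1) + ρ (s 1) (V p.2) := fun p => rfl
  obtain ⟨u, hu, hu'⟩ := exists_unitary ρ hs he (k + 1) (X₀ ∘ₗ M.subtype) (V ∘ₗ T ∘ₗ M.subtype)
    (fun m => Submodule.add_mem _ (Fs_gen ρ k 0 (hV1 _)) (Fs_gen ρ k 1 (hV1 _)))
    (fun m => Fs_succ ρ hfix' k (hV1 _))
    (fun m => by
      obtain ⟨⟨a, b⟩, ⟨ha, hb⟩, hab⟩ := m
      have hab' : τ (s 0) a + τ (s 1) b ∈ W := hab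
      show ‖ρ (s 0) (V a) + ρ (s 1) (V b)‖ = ‖V (τ (s 0) a + τ (s 1) b)‖
      have h1 : ‖ρ (s 0) (V a) + ρ (s 1) (V b)‖ ^ 2 = ‖V (τ (s 0) a + τ (s 1) b)‖ ^ 2 := by
        rw [norm_pair ρ hs, hV2 _ hab', norm_pair τ hs, hV2 _ ha, hV2 _ hb]
      exact (sq_eq_sq₀ (norm_nonneg _) (norm_nonneg _)).1 h1)
  have hu'' : ∀ p ∈ M, ρ u (X₀ p) = V (T p) := fun p hp => hu' ⟨p, hp⟩
  obtain ⟨φ, hφ⟩ := exists_endo hO hu
  rw [← hsdef] at hφ
  clear_value s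
  refine ⟨φ, k, V, hV1, hV2, hV3, ?_, ?_⟩
  · intro b h hh hb
    rw [hφ b, rep_mul]
    obtain rfl | rfl : b = 0 ∨ b = 1 := by fin_cases b <;> simp
    · have h1 := hu'' (h, 0) ⟨⟨hh, W.zero_mem⟩, by
        show τ (s 0) h + τ (s 1) 0 ∈ W
        rw [map_zero, add_zero]
        exact hb⟩
      rw [hX₀app, hTapp] at h1
      simpa using h1
    · have h1 := hu'' (0, h) ⟨⟨W.zero_mem, hh⟩, by
        show τ (s 0) 0 + τ (s 1) h ∈ W
        rw [map_zero, zero_add]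
        exact hb⟩
      rw [hX₀app, hTapp] at h1
      simpa using h1
  · intro h hh hb b
    have h0 : τ (s 0) (τ (star (s 0)) h) + τ (s 1) (τ (star (s 1)) h) = h := by
      rw [← rep_mul, ← rep_mul, ← _root_.ContinuousLinearMap.add_apply, ← map_add]
      have := hs.sum
      rw [Fin.sum_univ_two] at this
      rw [this, rep_one]
    have h1 := hu'' (τ (star (s 0)) h, τ (star (s 1)) h) ⟨⟨hb 0, hb 1⟩, by
        show τ (s 0) (τ (star (s 0)) h) + τ (s 1) (τ (star (s 1)) h) ∈ W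
        rw [h0]
        exact hh⟩
    rw [hX₀app, hTapp] at h1
    simp only [h0] at h1
    rw [map_star, hφ b, star_mul, rep_mul, ← h1, ← rep_mul ρ (star u),
      Unitary.star_mul_self_of_mem hu, rep_one, map_add, ← rep_mul, ← rep_mul, hs.orth, hs.orth]
    obtain rfl | rfl : b = 0 ∨ b = 1 := by fin_cases b <;> simp
    · simp
    · simp

end

end Vale.Agent.P083
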