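import Vale.Agent.P083.Defs

/-!
# P083: a Cuntz pair on a Hilbert space, with a vector fixed by the first isometry
-/

open Filter Topology
open scoped BoundedContinuousFunction InnerProductSpace ENNReal

namespace Vale.Agent.P083

noncomputable section

/-- the Hilbert space `ℓ²(ℕ)` -/
abbrev K2 : Type := lp (fun _ : ℕ => ℂ) 2

/-- the standard basis -/
def hb : HilbertBasis ℕ ℂ K2 := HilbertBasis.ofRepr (LinearIsometryEquiv.refl ℂ _)

theorem hb_apply (n : ℕ) : hb n = lp.single 2 n (1 : ℂ) := by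
  have h := hb.repr_self n
  exact h

/-- the isometry given by an orthonormal sequence -/
def isoOf (v : ℕ → K2) (hv : Orthonormal ℂ v) : K2 →ₗᵢ[ℂ] K2 :=
  hv.orthogonalFamily.linearIsometry

theorem isoOf_apply (v : ℕ → K2) (hv : Orthonormal ℂ v) (n : ℕ) : isoOf v hv (hb n) = v n := by
  rw [hb_apply]
  have h := hv.orthogonalFamily.linearIsometry_apply_single (i := n) (1 : ℂ)
  refine h.trans ?_
  simp

theorem orth_shift (j : Fin 2) : Orthonormal ℂ (fun n : ℕ => hb (2 * n + j)) :=
  hb.orthonormal.comp (fun n : ℕ => 2 * n + (j : ℕ)) (fun a b h => by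
    have : 2 * a + (j : ℕ) = 2 * b + (j : ℕ) := h
    omega)

/-- the two isometries -/
def SS (j : Fin 2) : K2 →L[ℂ] K2 := (isoOf _ (orth_shift j)).toContinuousLinearMap

theorem SS_apply (j : Fin 2) (n : ℕ) : SS j (hb n) = hb (2 * n + j) :=
  isoOf_apply _ (orth_shift j) n

theorem ext_hb {S T : K2 →L[ℂ] K2} (h : ∀ n, S (hb n) = T (hb n)) : S = T := by
  have hd : Dense ((Submodule.span ℂ (Set.range hb) : Submodule ℂ K2) : Set K2) :=
    Submodule.dense_iff_topologicalClosure_eq_top.2 hb.dense_span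
  exact ContinuousLinearMap.ext_on hd (by rintro _ ⟨n, rfl⟩; exact h n)

theorem star_SS_mul (j : Fin 2) : star (SS j) * SS j = 1 := by
  have h := (ContinuousLinearMap.norm_map_iff_adjoint_comp_self (SS j)).1
    (fun x => (isoOf _ (orth_shift j)).norm_map x)
  exact h

theorem star_SS_mul_ne {i j : Fin 2} (h : i ≠ j) : star (SS i) * SS j = 0 := by
  refine ext_hb fun n => ?_
  have h1 : ∀ m, ⟪hb m, (star (SS i) * SS j) (hb n)⟫_ℂ = 0 := by
    intro m
    have h2 : (star (SS i) * SS j) (hb n) = ContinuousLinearMap.adjoint (SS i) (SS j (hb n)) := rfl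
    rw [h2, ContinuousLinearMap.adjoint_inner_right, SS_apply, SS_apply]
    exact hb.orthonormal.2 (by
      intro h3
      apply h
      apply Fin.ext
      omega)
  have h3 : (star (SS i) * SS j) (hb n) = 0 := by
    apply hb.repr.injective
    ext m
    rw [hb.repr_apply_apply, h1]
    simp
  rw [h3]
  simp

theorem sum_SS : SS 0 * star (SS 0) + SS 1 * star (SS 1) = 1 := by
  have key : ∀ (j : Fin 2) (n : ℕ),
      (SS 0 * star (SS 0) + SS 1 * star (SS 1)) (SS j (hb n)) = SS j (hb n) := by
    intro j n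
    have e : (SS 0 * star (SS 0) + SS 1 * star (SS 1)) * SS j = SS j := by
      rw [add_mul, mul_assoc, mul_assoc]
      fin_cases j
      · simp only [Fin.zero_eta]
        rw [star_SS_mul, star_SS_mul_ne (by decide : (1 : Fin 2) ≠ 0)]
        simp
      · simp only [Fin.mk_one]
        rw [star_SS_mul, star_SS_mul_ne (by decide : (0 : Fin 2) ≠ 1)]
        simp
    exact congrArg (fun T : K2 →L[ℂ] K2 => T (hb n)) e
  refine ext_hb fun n => ?_
  rcases Nat.even_or_odd' n with ⟨m, rfl | rfl⟩
  · have := key 0 m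
    rw [SS_apply] at this
    simpa using this
  · have := key 1 m
    rw [SS_apply] at this
    simpa using this

theorem pair_SS : IsCuntzPair (SS 0) (SS 1) := ⟨star_SS_mul 0, star_SS_mul 1, sum_SS⟩

/-- The standard representation of the Cuntz algebra: a representation on a Hilbert space with a
unit vector fixed by the first generator. -/
theorem exists_rep {O : Type} [CStarAlgebra O] {s₀ s₁ : O} (hO : IsCuntzAlgebra s₀ s₁) :
    ∃ (K : Type) (_ : NormedAddCommGroup K) (_ : InnerProductSpace ℂ K) (_ : CompleteSpace K)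
      (ρ : O →⋆ₐ[ℂ] (K →L[ℂ] K)) (e : K), ‖e‖ = 1 ∧ ρ s₀ e = e := by
  obtain ⟨ρ, h0, h1⟩ := hO.universal (K2 →L[ℂ] K2) (SS 0) (SS 1) pair_SS
  refine ⟨K2, inferInstance, inferInstance, inferInstance, ρ, hb 0, hb.orthonormal.1 0, ?_⟩
  rw [h0, SS_apply]
  simp

end

end Vale.Agent.P083
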