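import Vale.Agent.P083.Ext
import Vale.Agent.P083.Model

/-!
# P083: full free products of unital subalgebras of `O₂` embed in the norm ultrapower of `O₂`
-/

open Filter Topology
open scoped BoundedContinuousFunction InnerProductSpace

namespace Vale.Agent.P083

noncomputable section

variable {O : Type} [CStarAlgebra O] {s₀ s₁ : O}
variable {I : Type*} {A : I → Type} [∀ i, CStarAlgebra (A i)] {P : Type} [CStarAlgebra P]
  {ι : ∀ i, A i →⋆ₐ[ℂ] P}

/-- Norms in the free product are computed by homomorphisms to `O`. -/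
theorem exists_hom (hO : IsCuntzAlgebra s₀ s₁) (hP : IsFreeProduct ι) (j : ∀ i, A i →⋆ₐ[ℂ] O)
    (hj : ∀ i, Function.Injective (j i)) (x : P) {ε : ℝ} (hε : 0 < ε) :
    ∃ Φ : P →⋆ₐ[ℂ] O, ‖x‖ - ε ≤ ‖Φ x‖ := by
  by_cases hx : x = 0
  · obtain ⟨Φ, _⟩ := hP.universal O j
    refine ⟨Φ, ?_⟩
    rw [hx, norm_zero]
    have := norm_nonneg (Φ 0)
    linarith
  · obtain ⟨K, k1, k2, k3, ρ, e, he, hfix⟩ := exists_rep hO
    obtain ⟨H, h1, h2, h3, π, ξ, hξ, hπ⟩ := exists_norming_rep x hx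
    obtain ⟨Φ, hΦ⟩ := exists_hom_of_rep hO ρ he hfix hP j π
      (fun i => locExt_of_injective hO.pair (j i) (hj i) _) x ξ hξ hε
    exact ⟨Φ, by rwa [hπ] at hΦ⟩

/-- A sequence of homomorphisms which computes all norms. -/
theorem exists_seq (hO : IsCuntzAlgebra s₀ s₁) (hP : IsFreeProduct ι) (j : ∀ i, A i →⋆ₐ[ℂ] O)
    (hj : ∀ i, Function.Injective (j i)) [TopologicalSpace.SeparableSpace P] :
    ∃ ψ : ℕ → (P →⋆ₐ[ℂ] O), ∀ x, Tendsto (fun n => ‖ψ n x‖) atTop (𝓝 ‖x‖) := by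
  have h1 : ∀ n l : ℕ, ∃ Φ : P →⋆ₐ[ℂ] O,
      ‖TopologicalSpace.denseSeq P l‖ - 1 / ((n : ℝ) + 1) ≤
        ‖Φ (TopologicalSpace.denseSeq P l)‖ :=
    fun n l => exists_hom hO hP j hj _ (by positivity)
  choose φ hφ using h1
  have h2 := fun n => exists_hom_finset hO.pair (φ n) n
  choose ψ hψ using h2
  refine ⟨ψ, fun x => ?_⟩
  rw [Metric.tendsto_atTop]
  intro ε hε
  obtain ⟨y, ⟨l, rfl⟩, hy⟩ := Metric.mem_closure_iff.1
    (TopologicalSpace.denseRange_denseSeq P x) (ε / 4) (by positivity)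
  obtain ⟨N, hN⟩ := exists_nat_one_div_lt (show (0 : ℝ) < ε / 4 by positivity)
  refine ⟨max N l, fun n hn => ?_⟩
  have hnN : N ≤ n := (le_max_left _ _).trans hn
  have hnl : l ≤ n := (le_max_right _ _).trans hn
  have h3 := hφ n l
  have h4 := hψ n l hnl (TopologicalSpace.denseSeq P l)
  have h5 : 1 / ((n : ℝ) + 1) < ε / 4 := by
    refine lt_of_le_of_lt ?_ hN
    have : (N : ℝ) ≤ n := by exact_mod_cast hnN
    exact one_div_le_one_div_of_le (by positivity) (by linarith)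
  have h6 : ‖ψ n x‖ ≤ ‖x‖ := NonUnitalStarAlgHom.norm_apply_le (ψ n) x
  rw [dist_eq_norm] at hy
  have h7 : ‖ψ n (TopologicalSpace.denseSeq P l)‖ - ‖ψ n x‖ ≤ ε / 4 := by
    refine (norm_sub_norm_le _ _).trans ?_
    rw [← map_sub]
    refine (NonUnitalStarAlgHom.norm_apply_le (ψ n) _).trans ?_
    rw [norm_sub_rev]
    exact hy.le
  have h8 : ‖x‖ - ‖TopologicalSpace.denseSeq P l‖ ≤ ε / 4 :=
    (norm_sub_norm_le _ _).trans hy.le
  rw [Real.dist_eq, abs_lt]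
  constructor <;> linarith

/-- the homomorphism to the bounded sequences given by a sequence of homomorphisms -/
def seqHom (ψ : ℕ → (P →⋆ₐ[ℂ] O)) : P →⋆ₐ[ℂ] (ℕ →ᵇ O) where
  toFun x := BoundedContinuousFunction.ofNormedAddCommGroupDiscrete (fun n => ψ n x) ‖x‖
    (fun n => NonUnitalStarAlgHom.norm_apply_le (ψ n) x)
  map_one' := by
    ext n
    simp
  map_mul' x y := by
    ext n
    simp
  map_zero' := by
    ext n
    simp
  map_add' x y := by
    ext n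
    simp
  commutes' c := by
    ext n
    simp [AlgHomClass.commutes, Algebra.algebraMap_eq_smul_one]
  map_star' x := by
    ext n
    simp [map_star]

theorem seqHom_apply (ψ : ℕ → (P →⋆ₐ[ℂ] O)) (x : P) (n : ℕ) : seqHom ψ x n = ψ n x := rfl

theorem injective_of_seq {ψ : ℕ → (P →⋆ₐ[ℂ] O)}
    (hψ : ∀ x, Tendsto (fun n => ‖ψ n x‖) atTop (𝓝 ‖x‖)) {ω : Ultrafilter ℕ}
    (hω : (ω : Filter ℕ) ≤ atTop) {U : Type*} [CStarAlgebra U] {q : (ℕ →ᵇ O) →⋆ₐ[ℂ] U}
    (hq : IsUltrapower ω q) : Function.Injective (q.comp (seqHom ψ)) := by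
  rw [injective_iff_map_eq_zero]
  intro x hx
  have h1 := (hq.ker (seqHom ψ x)).1 hx
  have h2 : Tendsto (fun n => ‖ψ n x‖) (ω : Filter ℕ) (𝓝 ‖x‖) := (hψ x).mono_left hω
  exact norm_eq_zero.1 (tendsto_nhds_unique h2 h1)

end

end Vale.Agent.P083
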