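import Vale.Agent.P083.Defs

/-!
# P083: unitaries of the Cuntz algebra act transitively on finite families of vectors
-/

open Filter Topology
open scoped InnerProductSpace

namespace Vale.Agent.P083

noncomputable section

/-- words of length `k` in two letters -/
def Idx : ℕ → Type
  | 0 => Unit
  | k + 1 => Fin 2 × Idx k

instance Idx.instDecidableEq : ∀ k, DecidableEq (Idx k)
  | 0 => inferInstanceAs (DecidableEq Unit)
  | k + 1 => @instDecidableEqProd _ _ _ (Idx.instDecidableEq k)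

instance Idx.instFintype : ∀ k, Fintype (Idx k)
  | 0 => inferInstanceAs (Fintype Unit)
  | k + 1 => @instFintypeProd _ _ _ (Idx.instFintype k)

theorem card_Idx : ∀ k, Fintype.card (Idx k) = 2 ^ k
  | 0 => rfl
  | k + 1 => by
    have h : Fintype.card (Idx (k + 1)) = Fintype.card (Fin 2) * Fintype.card (Idx k) :=
      Fintype.card_prod (Fin 2) (Idx k)
    rw [h, card_Idx k, Fintype.card_fin]
    ring

variable {O : Type} [CStarAlgebra O]

/-- the product of a word -/
def tw (s : Fin 2 → O) : (k : ℕ) → Idx k → O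
  | 0, _ => 1
  | k + 1, a => s a.1 * tw s k a.2

theorem pair_orth {s₀ s₁ : O} (h : IsCuntzPair s₀ s₁) : star s₀ * s₁ = 0 := by
  have h1 : star s₀ * (s₀ * star s₀ + s₁ * star s₁) * s₁ = star s₀ * s₁ := by
    rw [h.sum, mul_one]
  have h2 : star s₀ * (s₀ * star s₀ + s₁ * star s₁) * s₁ =
      (star s₀ * s₀) * (star s₀ * s₁) + (star s₀ * s₁) * (star s₁ * s₁) := by
    noncomm_ring
  rw [h2, h.iso₀, h.iso₁, one_mul, mul_one] at h1
  exact left_eq_add.1 h1.symm

/-- the two relations of a Cuntz family, with index set `Fin 2` -/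
structure Fam (s : Fin 2 → O) : Prop where
  orth : ∀ b c, star (s b) * s c = if b = c then 1 else 0
  sum : ∑ b, s b * star (s b) = 1

theorem fam_of_pair {s₀ s₁ : O} (h : IsCuntzPair s₀ s₁) : Fam ![s₀, s₁] := by
  have h01 := pair_orth h
  have h10 : star s₁ * s₀ = 0 := by
    have := congrArg star h01
    simpa using this
  refine ⟨?_, ?_⟩
  · intro b c
    fin_cases b <;> fin_cases c <;> simp [h.iso₀, h.iso₁, h01, h10]
  · simp [Fin.sum_univ_two, h.sum]

theorem pair_of_fam {s : Fin 2 → O} (h : Fam s) : IsCuntzPair (s 0) (s 1) := by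
  refine ⟨by simpa using h.orth 0 0, by simpa using h.orth 1 1, ?_⟩
  have := h.sum
  rwa [Fin.sum_univ_two] at this

theorem tw_orth {s : Fin 2 → O} (h : Fam s) : ∀ (k : ℕ) (a b : Idx k),
    star (tw s k a) * tw s k b = if a = b then 1 else 0
  | 0, a, b => by
    have : a = b := Subsingleton.elim (α := Unit) a b
    simp [tw, this]
  | k + 1, a, b => by
    have h1 : star (tw s (k + 1) a) * tw s (k + 1) b =
        star (tw s k a.2) * (star (s a.1) * s b.1) * tw s k b.2 := by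
      simp only [tw, star_mul, mul_assoc]
    rw [h1, h.orth]
    by_cases h2 : a.1 = b.1
    · rw [if_pos h2, mul_one, tw_orth h k]
      by_cases h3 : a.2 = b.2
      · have h5 : a = b := Prod.ext h2 h3
        rw [if_pos h3]
        exact (if_pos h5).symm
      · have h5 : ¬ a = b := fun h4 => h3 (congrArg Prod.snd h4)
        rw [if_neg h3]
        exact (if_neg h5).symm
    · have h5 : ¬ a = b := fun h4 => h2 (congrArg Prod.fst h4)
      rw [if_neg h2, mul_zero, zero_mul]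
      exact (if_neg h5).symm

theorem tw_sum {s : Fin 2 → O} (h : Fam s) : ∀ (k : ℕ),
    ∑ a : Idx k, tw s k a * star (tw s k a) = 1
  | 0 => by
    have : ∑ a : Idx 0, tw s 0 a * star (tw s 0 a) = ∑ _a : Unit, (1 : O) := by
      refine Finset.sum_congr rfl fun a _ => ?_
      simp [tw]
    rw [this]
    simp
  | k + 1 => by
    have h1 : ∑ a : Idx (k + 1), tw s (k + 1) a * star (tw s (k + 1) a) =
        ∑ b : Fin 2, ∑ a : Idx k, s b * (tw s k a * star (tw s k a)) * star (s b) := by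
      refine (Fintype.sum_prod_type (α₁ := Fin 2) (α₂ := Idx k)
        (fun a => tw s (k + 1) a * star (tw s (k + 1) a))).trans ?_
      refine Finset.sum_congr rfl fun b _ => Finset.sum_congr rfl fun a _ => ?_
      simp only [tw, star_mul, mul_assoc]
    rw [h1]
    simp_rw [← Finset.sum_mul, ← Finset.mul_sum, tw_sum h k, mul_one]
    exact h.sum

theorem tw_fix {s : Fin 2 → O} : ∀ (k : ℕ) (a : Idx k), ∃ b : Idx (k + 1),
    tw s k a * s 0 = tw s (k + 1) b
  | 0, a => ⟨((0 : Fin 2), a), by simp [tw]⟩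
  | k + 1, a => by
    obtain ⟨b, hb⟩ := tw_fix k a.2
    refine ⟨(a.1, b), ?_⟩
    have h1 : tw s (k + 1) a * s 0 = s a.1 * (tw s k a.2 * s 0) := by
      simp only [tw, mul_assoc]
    rw [h1, hb]
    rfl

/-- the matrix algebra inside the Cuntz algebra -/
def mat (s : Fin 2 → O) (k : ℕ) (m : Matrix (Idx k) (Idx k) ℂ) : O :=
  ∑ a, ∑ b, m a b • (tw s k a * star (tw s k b))

theorem mat_mul {s : Fin 2 → O} (h : Fam s) (k : ℕ) (m n : Matrix (Idx k) (Idx k) ℂ) :
    mat s k m * mat s k n = mat s k (m * n) := by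
  have h0 : ∀ a b c d : Idx k, (m a b • (tw s k a * star (tw s k b))) *
      (n c d • (tw s k c * star (tw s k d))) =
      if b = c then (m a b * n c d) • (tw s k a * star (tw s k d)) else 0 := by
    intro a b c d
    have h1 : (tw s k a * star (tw s k b)) * (tw s k c * star (tw s k d)) =
        tw s k a * (star (tw s k b) * tw s k c) * star (tw s k d) := by
      simp only [mul_assoc]
    rw [smul_mul_smul_comm, h1, tw_orth h]
    split_ifs <;> simp
  have h2 : mat s k m * mat s k n = ∑ a, ∑ b, ∑ c, ∑ d,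
      (if b = c then (m a b * n c d) • (tw s k a * star (tw s k d)) else 0) := by
    rw [mat, mat, Finset.sum_mul]
    refine Finset.sum_congr rfl fun a _ => ?_
    rw [Finset.sum_mul]
    refine Finset.sum_congr rfl fun b _ => ?_
    rw [Finset.mul_sum]
    refine Finset.sum_congr rfl fun c _ => ?_
    rw [Finset.mul_sum]
    exact Finset.sum_congr rfl fun d _ => h0 a b c d
  rw [h2, mat]
  refine Finset.sum_congr rfl fun a _ => ?_
  calc ∑ b, ∑ c, ∑ d, (if b = c then (m a b * n c d) • (tw s k a * star (tw s k d)) else 0)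
      = ∑ b, ∑ d, (m a b * n b d) • (tw s k a * star (tw s k d)) := by
        refine Finset.sum_congr rfl fun b _ => ?_
        rw [Finset.sum_comm]
        refine Finset.sum_congr rfl fun d _ => ?_
        rw [Finset.sum_ite_eq]
        simp
    _ = ∑ d, ∑ b, (m a b * n b d) • (tw s k a * star (tw s k d)) := Finset.sum_comm
    _ = _ := by
        refine Finset.sum_congr rfl fun d _ => ?_
        rw [Matrix.mul_apply, Finset.sum_smul]

theorem mat_one {s : Fin 2 → O} (h : Fam s) (k : ℕ) : mat s k 1 = 1 := by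
  rw [← tw_sum h k, mat]
  refine Finset.sum_congr rfl fun a _ => ?_
  simp [Matrix.one_apply]

theorem mat_star (s : Fin 2 → O) (k : ℕ) (m : Matrix (Idx k) (Idx k) ℂ) :
    star (mat s k m) = mat s k m.conjTranspose := by
  simp only [mat, star_sum, star_smul, star_mul, star_star, Matrix.conjTranspose_apply]
  exact Finset.sum_comm

variable {K : Type} [NormedAddCommGroup K] [InnerProductSpace ℂ K] [CompleteSpace K]

theorem rep_mul {B : Type*} [CStarAlgebra B] (ρ : B →⋆ₐ[ℂ] (K →L[ℂ] K)) (x y : B) (h : K) :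
    ρ (x * y) h = ρ x (ρ y h) := by
  rw [map_mul]
  rfl

theorem rep_one {B : Type*} [CStarAlgebra B] (ρ : B →⋆ₐ[ℂ] (K →L[ℂ] K)) (h : K) :
    ρ 1 h = h := by
  rw [map_one]
  rfl

theorem inner_rep {B : Type*} [CStarAlgebra B] (ρ : B →⋆ₐ[ℂ] (K →L[ℂ] K)) (x y : B) (h k : K) :
    ⟪ρ x h, ρ y k⟫_ℂ = ⟪h, ρ (star x * y) k⟫_ℂ := by
  rw [rep_mul, map_star, ContinuousLinearMap.star_eq_adjoint,
    ContinuousLinearMap.adjoint_inner_right]

/-- the vectors `t_a e` -/
def fv (ρ : O →⋆ₐ[ℂ] (K →L[ℂ] K)) (s : Fin 2 → O) (e : K) (k : ℕ) (a : Idx k) : K :=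
  ρ (tw s k a) e

/-- the span of the vectors `t_a e` -/
def Fs (ρ : O →⋆ₐ[ℂ] (K →L[ℂ] K)) (s : Fin 2 → O) (e : K) (k : ℕ) : Submodule ℂ K :=
  Submodule.span ℂ (Set.range (fv ρ s e k))

instance (ρ : O →⋆ₐ[ℂ] (K →L[ℂ] K)) (s : Fin 2 → O) (e : K) (k : ℕ) :
    FiniteDimensional ℂ (Fs ρ s e k) :=
  FiniteDimensional.span_of_finite ℂ (Set.finite_range _)

theorem fv_orthonormal (ρ : O →⋆ₐ[ℂ] (K →L[ℂ] K)) {s : Fin 2 → O} (h : Fam s) {e : K}
    (he : ‖e‖ = 1) (k : ℕ) : Orthonormal ℂ (fv ρ s e k) := by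
  rw [orthonormal_iff_ite]
  intro a b
  rw [fv, fv, inner_rep, tw_orth h]
  split_ifs
  · rw [rep_one, inner_self_eq_norm_sq_to_K, he]
    simp
  · simp

theorem Fs_succ (ρ : O →⋆ₐ[ℂ] (K →L[ℂ] K)) {s : Fin 2 → O} {e : K} (hfix : ρ (s 0) e = e)
    (k : ℕ) : Fs ρ s e k ≤ Fs ρ s e (k + 1) := by
  refine Submodule.span_le.2 ?_
  rintro _ ⟨a, rfl⟩
  obtain ⟨b, hb⟩ := tw_fix (s := s) k a
  refine Submodule.subset_span ⟨b, ?_⟩
  rw [fv, fv, ← hb, rep_mul, hfix]

theorem Fs_mono (ρ : O →⋆ₐ[ℂ] (K →L[ℂ] K)) {s : Fin 2 → O} {e : K} (hfix : ρ (s 0) e = e) :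
    Monotone (Fs ρ s e) := monotone_nat_of_le_succ (Fs_succ ρ hfix)

theorem Fs_gen (ρ : O →⋆ₐ[ℂ] (K →L[ℂ] K)) {s : Fin 2 → O} {e : K} (k : ℕ) (b : Fin 2) {x : K}
    (hx : x ∈ Fs ρ s e k) : ρ (s b) x ∈ Fs ρ s e (k + 1) := by
  induction hx using Submodule.span_induction with
  | mem x hx =>
    obtain ⟨a, rfl⟩ := hx
    refine Submodule.subset_span ⟨(b, a), ?_⟩
    show ρ (s b * tw s k a) e = ρ (s b) (ρ (tw s k a) e)
    rw [map_mul]
    rfl
  | zero => simp
  | add x y _ _ hx hy => rw [map_add]; exact Submodule.add_mem _ hx hy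
  | smul c x _ hx => rw [map_smul]; exact Submodule.smul_mem _ _ hx

theorem expand (ρ : O →⋆ₐ[ℂ] (K →L[ℂ] K)) {s : Fin 2 → O} (h : Fam s) {e : K}
    (he : ‖e‖ = 1) (k : ℕ) {y : K} (hy : y ∈ Fs ρ s e k) :
    ∑ a, ⟪fv ρ s e k a, y⟫_ℂ • fv ρ s e k a = y := by
  have ho := orthonormal_iff_ite.1 (fv_orthonormal ρ h he k)
  induction hy using Submodule.span_induction with
  | mem x hx =>
    obtain ⟨b, rfl⟩ := hx
    simp [ho]
  | zero => simp
  | add x y _ _ hx hy =>
    simp only [inner_add_right, add_smul, Finset.sum_add_distrib, hx, hy]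
  | smul c x _ hx =>
    simp only [inner_smul_right, mul_smul, ← Finset.smul_sum, hx]

/-- the unitary of a linear isometry of `Fs k` -/
theorem exists_unitary_of_isometry (ρ : O →⋆ₐ[ℂ] (K →L[ℂ] K)) {s : Fin 2 → O} (h : Fam s) {e : K}
    (he : ‖e‖ = 1) (k : ℕ) (U : Fs ρ s e k →ₗᵢ[ℂ] Fs ρ s e k) :
    ∃ u ∈ unitary O, ∀ y : Fs ρ s e k, ρ u (y : K) = (U y : K) := by
  classical
  have ho := orthonormal_iff_ite.1 (fv_orthonormal ρ h he k)
  have hmem : ∀ a, fv ρ s e k a ∈ Fs ρ s e k := fun a => Submodule.subset_span ⟨a, rfl⟩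
  set f' : Idx k → Fs ρ s e k := fun a => ⟨fv ρ s e k a, hmem a⟩ with hf'
  set m : Matrix (Idx k) (Idx k) ℂ := fun a b => ⟪fv ρ s e k a, (U (f' b) : K)⟫_ℂ with hm
  have h1 : m.conjTranspose * m = 1 := by
    ext b d
    rw [Matrix.mul_apply, Matrix.one_apply]
    have e1 : ∑ a, m.conjTranspose b a * m a d =
        ⟪(U (f' b) : K), ∑ a, ⟪fv ρ s e k a, (U (f' d) : K)⟫_ℂ • fv ρ s e k a⟫_ℂ := by
      rw [inner_sum]
      refine Finset.sum_congr rfl fun a _ => ?_
      rw [inner_smul_right, Matrix.conjTranspose_apply, hm, RCLike.star_def, inner_conj_symm,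
        mul_comm]
    rw [e1, expand ρ h he k (U (f' d)).2]
    have e2 : ⟪(U (f' b) : K), (U (f' d) : K)⟫_ℂ = ⟪f' b, f' d⟫_ℂ := by
      rw [← Submodule.coe_inner, U.inner_map_map]
    rw [e2, Submodule.coe_inner]
    exact ho b d
  have h2 : m * m.conjTranspose = 1 := mul_eq_one_comm.1 h1
  refine ⟨mat s k m, ?_, ?_⟩
  · rw [Unitary.mem_iff]
    rw [mat_star, mat_mul h, mat_mul h, h1, h2, mat_one h]
    exact ⟨rfl, rfl⟩
  · have key : ∀ c, ρ (mat s k m) (fv ρ s e k c) = (U (f' c) : K) := by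
      intro c
      have e1 : mat s k m * tw s k c = ∑ a, m a c • tw s k a := by
        rw [mat, Finset.sum_mul]
        refine Finset.sum_congr rfl fun a _ => ?_
        rw [Finset.sum_mul]
        have : ∀ b, m a b • (tw s k a * star (tw s k b)) * tw s k c =
            if b = c then m a b • tw s k a else 0 := by
          intro b
          rw [smul_mul_assoc, mul_assoc, tw_orth h]
          split_ifs <;> simp
        simp_rw [this]
        simp
      rw [fv, ← rep_mul, e1, map_sum, ContinuousLinearMap.sum_apply]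
      have e2 := expand ρ h he k (U (f' c)).2
      rw [← e2]
      refine Finset.sum_congr rfl fun a _ => ?_
      rw [map_smul, ContinuousLinearMap.smul_apply]
      rfl
    intro y
    have e1 := expand ρ h he k y.2
    have e2 : y = ∑ a, ⟪fv ρ s e k a, (y : K)⟫_ℂ • f' a := by
      apply Subtype.ext
      rw [Submodule.coe_sum]
      simp only [Submodule.coe_smul]
      exact e1.symm
    have e3 : (U y : K) = ∑ a, ⟪fv ρ s e k a, (y : K)⟫_ℂ • (U (f' a) : K) := by
      conv_lhs => rw [e2]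
      rw [map_sum, Submodule.coe_sum]
      simp only [map_smul, Submodule.coe_smul]
    rw [e3]
    conv_lhs => rw [← e1]
    rw [map_sum]
    refine Finset.sum_congr rfl fun a _ => ?_
    rw [map_smul, key]

/-- Transitivity: two linear maps with values in `Fs k` and equal norms differ by a unitary of the
Cuntz algebra. -/
theorem exists_unitary (ρ : O →⋆ₐ[ℂ] (K →L[ℂ] K)) {s : Fin 2 → O} (h : Fam s) {e : K}
    (he : ‖e‖ = 1) (k : ℕ) {M : Type*} [AddCommGroup M] [Module ℂ M] (X Y : M →ₗ[ℂ] K)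
    (hX : ∀ m, X m ∈ Fs ρ s e k) (hY : ∀ m, Y m ∈ Fs ρ s e k) (hXY : ∀ m, ‖X m‖ = ‖Y m‖) :
    ∃ u ∈ unitary O, ∀ m, ρ u (X m) = Y m := by
  set X' : M →ₗ[ℂ] Fs ρ s e k := X.codRestrict _ hX with hX'
  set Y' : M →ₗ[ℂ] Fs ρ s e k := Y.codRestrict _ hY with hY'
  have hn : ∀ m, ‖X' m‖ = ‖Y' m‖ := hXY
  obtain ⟨g, hg⟩ := LinearMap.exists_rightInverse_of_surjective X'.rangeRestrict
    X'.range_rangeRestrict
  have hg' : ∀ w, X' (g w) = w := by
    intro w
    have := congrArg (fun T => ((T w : LinearMap.range X') : Fs ρ s e k)) hg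
    exact this
  let L : LinearMap.range X' →ₗᵢ[ℂ] Fs ρ s e k :=
    { toLinearMap := Y' ∘ₗ g
      norm_map' := by
        intro w
        show ‖Y' (g w)‖ = ‖w‖
        rw [← hn, hg']
        rfl }
  have hL : ∀ m, L ⟨X' m, m, rfl⟩ = Y' m := by
    intro m
    show Y' (g ⟨X' m, m, rfl⟩) = Y' m
    have h1 : X' (g ⟨X' m, m, rfl⟩ - m) = 0 := by
      rw [map_sub, hg', sub_self]
    have h2 : Y' (g ⟨X' m, m, rfl⟩ - m) = 0 := by
      rw [← norm_eq_zero, ← hn, h1, norm_zero]
    rw [map_sub] at h2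
    exact sub_eq_zero.1 h2
  obtain ⟨u, hu, hu'⟩ := exists_unitary_of_isometry ρ h he k L.extend
  refine ⟨u, hu, fun m => ?_⟩
  have h1 := hu' (X' m)
  have h2 : L.extend (X' m) = L ⟨X' m, m, rfl⟩ := L.extend_apply ⟨X' m, m, rfl⟩
  rw [h2, hL] at h1
  exact h1

end

end Vale.Agent.P083
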